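import Vale.Agent.P032.R2.H171.EmptyV
import Vale.Agent.P032.R2.H267.NoLockV

/-!
# P032: the world without stopped arcs and without contacts meeting both pairs is empty

`S3H.harmOnly` : in the world `S3H` the four-coloured points on the circles of the two-pair points are
harmless; `S3H.empty` : the world is empty.
-/

open Set Filter Topology Metric

noncomputable section

namespace Vale.Agent.P032.Six

open Vale.Agent.P032.S5.H767 (Ex)

variable {U : Fin 6 → Set ℂ} {T : ℂ → Set (Fin 6)}

/-- the names of a two-pair contact -/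
theorem DPt.names_of_contact {z y : ℂ} {a b c d m n : Fin 6} (hz : DPt T z a b c d)
    (hint : T y ∩ T z = {a, b}) (hD : DPt T y a b m n) : [a, b, c, d, m, n].Nodup := by
  have hm : m ∉ T z := by
    intro h5
    have h6 : m ∈ T y ∩ T z := ⟨by rw [hD.pal]; simp, h5⟩
    rw [hint] at h6
    rcases h6 with h6 | h6
    · exact hD.ac h6.symm
    · exact hD.bc (by simpa using h6.symm)
  have hn : n ∉ T z := by
    intro h5
    have h6 : n ∈ T y ∩ T z := ⟨by rw [hD.pal]; simp, h5⟩
    rw [hint] at h6
    rcases h6 with h6 | h6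
    · exact hD.ad h6.symm
    · exact hD.bd (by simpa using h6.symm)
  have hc : c ∈ T z := by rw [hz.pal]; simp
  have hd : d ∈ T z := by rw [hz.pal]; simp
  have cm : c ≠ m := fun h5 => hm (h5 ▸ hc)
  have dm : d ≠ m := fun h5 => hm (h5 ▸ hd)
  have cn : c ≠ n := fun h5 => hn (h5 ▸ hc)
  have dn : d ≠ n := fun h5 => hn (h5 ▸ hd)
  simp [hz.ab, hz.ac, hz.ad, hz.bc, hz.bd, hz.cd, hD.ac, hD.ad, hD.bc, hD.bd, hD.cd, cm, dm, cn, dn]

/-- the contacts of a two-pair point are harmless -/
theorem S3H.harmOnly (H : S3H U T) : HarmOnly T := by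
  intro z a b c d hz y hy hy4
  have hss : ∀ {i j : Fin 6}, i ≠ j → T y ∩ T z = {i, j} → ({i, j} : Set (Fin 6)) ⊂ T y := by
    intro i j hij hint
    have hsub : ({i, j} : Set (Fin 6)) ⊆ T y := by rw [← hint]; exact inter_subset_left
    refine ⟨hsub, fun h5 => ?_⟩
    have h6 := Set.ncard_le_ncard h5 (Set.toFinite _)
    rw [hy4, Set.ncard_pair hij] at h6
    omega
  rcases H.tie hz hy hy4 with ⟨hint, ⟨m, n, hD⟩ | hH⟩ | ⟨hint, ⟨m, n, hD⟩ | hH⟩
  · exact (H.noLock hz hD hy (hz.names_of_contact hint hD)).elim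
  · refine Or.inl ⟨hint, hH, fun hcl => ?_⟩
    have := H.end3 hz (acc_of_closure hcl) (hss hz.ab hint)
    omega
  · exact (H.noLock hz.swap hD hy (hz.swap.names_of_contact hint hD)).elim
  · refine Or.inr ⟨hint, hH, fun hcl => ?_⟩
    have := H.end3 hz.swap (acc_of_closure hcl) (hss hz.cd hint)
    omega

/-- **the world without stopped arcs and without contacts meeting both pairs is empty** -/
theorem S3H.empty (H : S3H U T) (hmin : Mn U T) : False :=
  H.irr.empty_of_harm hmin H.le4 H.harmOnly

end Vale.Agent.P032.Six
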