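import Vale.Agent.P032.S5.H11.TopD
import Vale.Agent.P032.S5.H358.NoSpec
import Vale.Agent.P032.R2.H833.S3B

/-!
# P032: two-pair points with harmless contacts only

`Irr.no_hx_pair` : on the circle of a two-pair point `ab | cd` there are no harmless points with the
palettes `{a, b, e, f}`, `{c, d, e, f}` and the pairs `{a, b}`, `{c, d}` at distance one.
`Irr.noD_of_harm` : no two-pair point, if the four-coloured points on the circles of the two-pair
points `ab | cd` are harmless with the common pair `{a, b}` or `{c, d}` and no exact arcs of this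
pair accumulate there.
`Irr.empty_of_harm` : then the frame with at most four colours is empty.
-/

open Set Filter Topology Metric

noncomputable section

namespace Vale.Agent.P032.Six

open Vale.Agent.P032.S5 Vale.Agent.P032.S5.H358 Vale.Agent.P032.S5.H767

variable {U : Fin 6 → Set ℂ} {T : ℂ → Set (Fin 6)}

/-- an arc has points off three given lines through the centre -/
theorem Arc.exists_off_three171 {z p y y' y'' : ℂ} {P : Set (Fin 6)} (h : Arc T z p P) :
    ∃ q, Arc T z q P ∧ (q ≠ y ∧ q + y ≠ 2 * z) ∧ (q ≠ y' ∧ q + y' ≠ 2 * z) ∧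
      (q ≠ y'' ∧ q + y'' ≠ 2 * z) := by
  obtain ⟨q, hq, q1, q2, q3, q4⟩ := h.exists_off_two (y := y) (y' := y')
  have ho : ∀ w : ℂ, q ≠ w → q + w ≠ 2 * z → ∀ᶠ x in 𝓝[sphere z 1] q, x ≠ w ∧ x + w ≠ 2 * z := by
    intro w h1 h2
    refine mem_nhdsWithin_of_mem_nhds ?_
    have h3 : {x : ℂ | x ≠ w} ∈ 𝓝 q := isOpen_ne.mem_nhds h1
    have h4 : {x : ℂ | x + w ≠ 2 * z} ∈ 𝓝 q :=
      (isOpen_ne.preimage (continuous_id.add continuous_const)).mem_nhds h2
    exact inter_mem h3 h4
  obtain ⟨q', hs, hqz, k1, k2, hJ⟩ := exists_generic (y := y'') hq.1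
    (inter_mem hq.2 (inter_mem (ho y q1 q2) (ho y' q3 q4)))
  exact ⟨q', ⟨hqz, mem_of_superset hJ inter_subset_left⟩, hs.2.1, hs.2.2, k1, k2⟩

/-- opposite an exact arc: the translated points near `y + g - z` on the circle of `y` have none of
the colours of the arc -/
theorem Irr.prism_ev (h : Irr U T) {z y g : ℂ} {P : Set (Fin 6)} (hg : Arc T z g P)
    (hy : dist y z = 1) (h1 : g ≠ y) (h2 : g + y ≠ 2 * z) :
    ∀ᶠ q in 𝓝[sphere y 1] (y + g - z), ∀ i ∈ P, i ∉ T q := by
  obtain ⟨V, hV, hVs⟩ := mem_nhdsWithin_iff_exists_mem_nhds_inter.1 hg.2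
  obtain ⟨W, hWV, hWo, hgW⟩ := _root_.mem_nhds_iff.1 hV
  have hc : ContinuousAt (fun q : ℂ => q + z - y) (y + g - z) := by fun_prop
  have e0 : y + g - z + z - y = g := by ring
  have n1 : ∀ᶠ q in 𝓝 (y + g - z), q + z - y ∈ W := by
    refine hc (hWo.mem_nhds ?_)
    simp only [e0]; exact hgW
  have n2 : ∀ᶠ q in 𝓝 (y + g - z), q + z - y ≠ y := by
    refine hc (isOpen_ne.mem_nhds ?_)
    simp only [e0]; exact h1
  have n3 : ∀ᶠ q in 𝓝 (y + g - z), q + z - y + y ≠ 2 * z := by
    have hc3 : ContinuousAt (fun q : ℂ => q + z - y + y) (y + g - z) := by fun_prop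
    refine hc3 (isOpen_ne.mem_nhds ?_)
    simp only [e0]; exact h2
  filter_upwards [mem_nhdsWithin_of_mem_nhds n1, mem_nhdsWithin_of_mem_nhds n2,
    mem_nhdsWithin_of_mem_nhds n3, self_mem_nhdsWithin] with q m1 m2 m3 hq i hi hiq
  have hd : dist (q + z - y) z = 1 := by
    have : dist q y = 1 := hq
    rw [dist_eq_norm, show q + z - y - z = q - y by ring, ← dist_eq_norm]; exact this
  have hA : Arc T z (q + z - y) P := by
    refine ⟨hd, ?_⟩
    filter_upwards [mem_nhdsWithin_of_mem_nhds (hWo.mem_nhds m1), self_mem_nhdsWithin] with x hx hxs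
    exact hVs ⟨hWV hx, hxs⟩
  refine h.prism833 hA hy m2 m3 hi ?_
  rw [show y + (q + z - y) - z = q by ring]
  exact h.sub _ hiq

/-- **no two harmless contacts of different pairs at distance one** -/
theorem Irr.no_hx_pair (h : Irr U T) {z y y' : ℂ} {a b c d e f : Fin 6} (hz : DPt T z a b c d)
    (nd : [a, b, c, d, e, f].Nodup) (hy : dist y z = 1) (hy' : dist y' z = 1)
    (hyy : dist y y' = 1) (H1 : Hx T z a b e f y) (H2 : Hx T z c d e f y') : False := by
  have hall : ∀ i : Fin 6, i = a ∨ i = b ∨ i = c ∨ i = d ∨ i = e ∨ i = f := by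
    intro i
    by_cases hi : i ∈ T z
    · rw [hz.pal] at hi
      rcases hi with h1 | h1 | h1 | h1
      · exact Or.inl h1
      · exact Or.inr (Or.inl h1)
      · exact Or.inr (Or.inr (Or.inl h1))
      · exact Or.inr (Or.inr (Or.inr (Or.inl h1)))
    · rcases (S5.H358.ctr_of_dpt h hz nd).miss hi with h1 | h1
      · exact Or.inr (Or.inr (Or.inr (Or.inr (Or.inl h1))))
      · exact Or.inr (Or.inr (Or.inr (Or.inr (Or.inr h1))))
  obtain ⟨g0, hg0⟩ := hz.arc2
  obtain ⟨g, hg, ⟨g1, g2⟩, ⟨g3, g4⟩, ⟨g5, g6⟩⟩ :=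
    hg0.exists_off_three171 (y := y) (y' := y') (y'' := y + z - y')
  have hu := h.prism_ev hg hy g1 g2
  have huy : dist (y + g - z) y = 1 := by
    rw [dist_eq_norm, show y + g - z - y = g - z by ring, ← dist_eq_norm]; exact hg.1
  have hab : ∀ᶠ q in 𝓝[sphere y 1] (y + g - z), ({a, b} : Set (Fin 6)) ⊆ T q := by
    filter_upwards [hu, self_mem_nhdsWithin] with q hq hqs
    refine H1.2.1 q hqs ?_
    intro i hi
    rw [H1.1]
    rcases hall i with rfl | rfl | rfl | rfl | rfl | rfl
    · simp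
    · simp
    · exact absurd hi (hq _ (by simp))
    · exact absurd hi (hq _ (by simp))
    · simp
    · simp
  have hw' : dist (y' + g - z) y' = 1 := by
    rw [dist_eq_norm, show y' + g - z - y' = g - z by ring, ← dist_eq_norm]; exact hg.1
  have huw : dist (y + g - z) (y' + g - z) = 1 := by
    rw [dist_eq_norm, show y + g - z - (y' + g - z) = y - y' by ring, ← dist_eq_norm]; exact hyy
  have hno : ∀ i ∈ ({a, b} : Set (Fin 6)), i ∉ T (y' + g - z) := by
    intro i hi h5
    refine line_free h huy (t := i) (hab.mono fun q hq => hq hi) huw (fun h6 => g5 ?_)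
      (fun h6 => g6 ?_) (h.sub _ h5)
    · linear_combination h6
    · linear_combination -h6
  have hcd : ∀ i ∈ ({c, d} : Set (Fin 6)), i ∉ T (y' + g - z) := by
    intro i hi h5
    exact h.prism833 hg hy' g3 g4 hi (h.sub _ h5)
  have hsub : T (y' + g - z) ⊆ T y' := by
    intro i hi
    rw [H2.1]
    rcases hall i with rfl | rfl | rfl | rfl | rfl | rfl
    · exact absurd hi (hno _ (by simp))
    · exact absurd hi (hno _ (by simp))
    · simp
    · simp
    · simp
    · simp
  have := H2.2.1 _ hw' hsub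
  exact hcd c (by simp) (this (by simp))

/-- the four-coloured points on the circles of the two-pair points are harmless with the common
pair, away from the exact arcs of this pair -/
def HarmOnly (T : ℂ → Set (Fin 6)) : Prop :=
  ∀ {z : ℂ} {a b c d : Fin 6}, DPt T z a b c d → ∀ {y : ℂ}, dist y z = 1 → (T y).ncard = 4 →
    (T y ∩ T z = {a, b} ∧ Harm T y {a, b} ∧ y ∉ closure (Ex T z {a, b})) ∨
    (T y ∩ T z = {c, d} ∧ Harm T y {c, d} ∧ y ∉ closure (Ex T z {c, d}))

/-- a harmless contact in the form `Hx` -/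
theorem hx_of_harm {z y : ℂ} {a b e f : Fin 6} (hy4 : (T y).ncard = 4)
    (hmiss : ∀ i, i ∉ T z → i = e ∨ i = f) (hint : T y ∩ T z = {a, b})
    (hH : Harm T y {a, b}) (hcl : y ∉ closure (Ex T z {a, b})) : Hx T z a b e f y := by
  refine ⟨?_, fun w hw hs => hH.h1 w hw hs, hcl⟩
  refine Set.eq_of_subset_of_ncard_le ?_ ?_ (Set.toFinite _)
  · intro i hi
    by_cases hz : i ∈ T z
    · have h1 : i ∈ T y ∩ T z := ⟨hi, hz⟩
      rw [hint] at h1
      rcases h1 with h1 | h1
      · rw [h1]; simp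
      · rw [mem_singleton_iff] at h1; rw [h1]; simp
    · rcases hmiss i hz with h1 | h1
      · rw [h1]; simp
      · rw [h1]; simp
  · rw [hy4]
    have h1 : (({a, b, e, f} : Finset (Fin 6)) : Set (Fin 6)) = {a, b, e, f} := by push_cast; rfl
    rw [← h1, Set.ncard_coe_finset]
    exact Finset.card_le_four

/-- **no two-pair points**, if their four-coloured contacts are harmless -/
theorem Irr.noD_of_harm (h : Irr U T) (h4 : ∀ x, (T x).ncard ≤ 4) (hK : HarmOnly T) :
    ∀ z a b c d, DPt T z a b c d → False := by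
  refine no_D_of_good h h4 fun z a b c d hz => ?_
  obtain ⟨e, f, nd⟩ := hz.exists_nodup
  have hmiss : ∀ i, i ∉ T z → i = e ∨ i = f := fun i hi => (S5.H358.ctr_of_dpt h hz nd).miss hi
  refine good_of_adm h hz nd ⟨fun y hy => ?_, fun y y' hy hy' hyy h1 h2 =>
    h.no_hx_pair hz nd hy hy' hyy h1 h2⟩
  by_cases h3 : (T y).ncard ≤ 3
  · exact Or.inl h3
  · have hy4 : (T y).ncard = 4 := by have := h4 y; omega
    rcases hK hz hy hy4 with ⟨h1, h2, h5⟩ | ⟨h1, h2, h5⟩
    · exact Or.inr (Or.inl (hx_of_harm hy4 hmiss h1 h2 h5))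
    · exact Or.inr (Or.inr (hx_of_harm hy4 hmiss h1 h2 h5))

/-- **at most four colours, no two-pair points: empty** -/
theorem Irr.empty_of_noD (h : Irr U T) (hmin : Mn U T) (h4 : ∀ x, (T x).ncard ≤ 4)
    (hD : ∀ z a b c d, DPt T z a b c d → False) : False := by
  obtain ⟨z, a, b, c, d, hz, -⟩ := h.exists_dpair' hmin h4
  exact hD z a b c d hz

/-- **at most four colours, only harmless contacts of two-pair points: empty** -/
theorem Irr.empty_of_harm (h : Irr U T) (hmin : Mn U T) (h4 : ∀ x, (T x).ncard ≤ 4)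
    (hK : HarmOnly T) : False :=
  h.empty_of_noD hmin h4 (h.noD_of_harm h4 hK)

end Vale.Agent.P032.Six
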