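import Vale.Agent.P032.R2.H171.Ident
import Vale.Agent.P032.R2.H333.S3Flank
import Vale.Agent.P032.S5.H827.Edge

/-!
# P032: contacts of type S3: the tangent rule, triples, harmless contacts

* `Irr.tan_rule` (tangent rule): `z, y, p` a unit triangle, near `y` the circle `S(z)` has `a` inside
  and `b` outside, `S(p)` has `e` inside and `f` outside: not both `f ∈ T (y + z - p)` and
  `b ∈ T (y + p - z)`.
* `Irr.t1_false`: no unit triangle of two-pair points `ab|cd`, `ab|ef`, `cd|ef` if exact arcs of one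
  centre force exact arcs of the common pair of the other one.
* `Irr.t1_harm`: the same with harmless `y = H{ab}`, `p = H{cd}`.
* `Irr.harm_same`, `Irr.harm_tie`: four-coloured points on the circle of a harmless contact.
-/

open Set Filter Topology Metric

noncomputable section

namespace Vale.Agent.P032.Six

open Vale.Agent.P032.S5.H767

variable {k : ℕ} {U : Fin k → Set ℂ} {T : ℂ → Set (Fin k)}

/-! ## the tangent rule -/

/-- two curves in a colour from one point, one inside and one outside `S(V)` -/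
theorem Mx.w_curves (h : Mx U) {f : Fin k} {y V : ℂ} {γ₁ γ₂ : ℝ → ℂ} (c1 : Continuous γ₁)
    (c2 : Continuous γ₂) (o1 : γ₁ 0 = y) (o2 : γ₂ 0 = y)
    (e1 : ∀ᶠ t : ℝ in 𝓝[>] 0, f ∈ Pal U (γ₁ t) ∧ dist (γ₁ t) V < 1)
    (e2 : ∀ᶠ t : ℝ in 𝓝[>] 0, f ∈ Pal U (γ₂ t) ∧ 1 < dist (γ₂ t) V) : f ∉ Pal U V := by
  obtain ⟨δ1, hδ1, k1⟩ := exists_pos_of_ev e1
  obtain ⟨δ2, hδ2, k2⟩ := exists_pos_of_ev e2
  have hy : y ∈ closure (U f) := by
    have h1 : Tendsto γ₁ (𝓝[>] 0) (𝓝 y) := by
      rw [← o1]; exact (c1.tendsto 0).mono_left nhdsWithin_le_nhds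
    exact isClosed_closure.mem_of_tendsto h1 (e1.mono fun t ht => ht.1)
  have hA : IsPreconnected (γ₁ '' Icc 0 (δ1 / 2)) := isPreconnected_Icc.image _ c1.continuousOn
  have hB : IsPreconnected (γ₂ '' Icc 0 (δ2 / 2)) := isPreconnected_Icc.image _ c2.continuousOn
  have yA : y ∈ γ₁ '' Icc 0 (δ1 / 2) := ⟨0, ⟨le_rfl, by positivity⟩, o1⟩
  have yB : y ∈ γ₂ '' Icc 0 (δ2 / 2) := ⟨0, ⟨le_rfl, by positivity⟩, o2⟩
  have hAB := hA.union y yA yB hB
  have hsub : γ₁ '' Icc 0 (δ1 / 2) ∪ γ₂ '' Icc 0 (δ2 / 2) ⊆ closure (U f) := by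
    rintro w (⟨s, hs, rfl⟩ | ⟨s, hs, rfl⟩)
    · rcases hs.1.eq_or_lt with h8 | h8
      · rw [← h8, o1]; exact hy
      · exact (k1 s h8 (by linarith [hs.2])).1
    · rcases hs.1.eq_or_lt with h8 | h8
      · rw [← h8, o2]; exact hy
      · exact (k2 s h8 (by linarith [hs.2])).1
  exact h.wlemma hAB hsub (Or.inl ⟨δ1 / 2, ⟨by positivity, le_rfl⟩, rfl⟩)
    (Or.inr ⟨δ2 / 2, ⟨by positivity, le_rfl⟩, rfl⟩) (k1 _ (by positivity) (by linarith)).2
    (k2 _ (by positivity) (by linarith)).2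

theorem cont_arc (C P : ℂ) (τ : ℝ) : Continuous fun t : ℝ => C + (P - C) * cis (τ * t) :=
  continuous_const.add (continuous_const.mul (continuous_cis.comp
    (continuous_const.mul continuous_id)))

/-- the circle is outside the antipodal circle -/
theorem arc_anti {q y : ℂ} (hq : dist y q = 1) {τ : ℝ} (hτ : τ = 1 ∨ τ = -1) :
    ∀ᶠ t : ℝ in 𝓝[>] 0, 1 < dist (q + (y - q) * cis (τ * t)) (2 * y - q) := by
  filter_upwards [Ioo_mem_nhdsGT (show (0 : ℝ) < 1 by norm_num)] with t ht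
  have e1 : q + (y - q) * cis (τ * t) - (2 * y - q) = (y - q) * (cis (τ * t) - 2) := by ring
  rw [dist_eq_norm, e1, norm_mul, ← dist_eq_norm, hq, one_mul]
  have hcos : Real.cos (τ * t) < 1 := by
    have hc : Real.cos (τ * t) = Real.cos t := by
      rcases hτ with rfl | rfl
      · rw [one_mul]
      · rw [neg_one_mul, Real.cos_neg]
    rw [hc, ← Real.cos_zero]
    exact Real.cos_lt_cos_of_nonneg_of_le_pi le_rfl (by linarith [Real.pi_gt_three, ht.2]) ht.1
  have h6 : ‖cis (τ * t) - 2‖ ^ 2 = 5 - 4 * Real.cos (τ * t) := by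
    rw [Complex.sq_norm, Complex.normSq_apply]
    simp only [Complex.sub_re, Complex.sub_im, cis_re, cis_im]
    have := Real.sin_sq_add_cos_sq (τ * t)
    simp
    nlinarith
  have h7 := norm_nonneg (cis (τ * t) - 2)
  nlinarith

/-- a palette inside `{a, b, f}`, not both `a, b`, not a single one of them -/
theorem Irr.mem_third (h : Irr U T) {u z : ℂ} {a b f : Fin k} (hu : dist u z = 1)
    (ha : a ∈ Pal U z) (hb : b ∈ Pal U z) (hs : T u ⊆ {a, b, f}) (hn : ¬ (a ∈ T u ∧ b ∈ T u)) :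
    f ∈ T u := by
  by_contra hf
  by_cases h1 : a ∈ T u
  · have h2 : b ∉ T u := fun h2 => hn ⟨h1, h2⟩
    have h3 : T u ⊆ {a} := by
      intro m hm
      rcases hs hm with rfl | rfl | h4
      · rfl
      · exact absurd hm h2
      · rw [mem_singleton_iff] at h4; subst h4; exact absurd hm hf
    exact h.mx.notMem ha hu (h.mem_of_single h3)
  · have h3 : T u ⊆ {b} := by
      intro m hm
      rcases hs hm with rfl | rfl | h4
      · exact absurd hm h1
      · rfl
      · rw [mem_singleton_iff] at h4; subst h4; exact absurd hm hf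
    exact h.mx.notMem hb hu (h.mem_of_single h3)

/-- **TANGENT RULE.** -/
theorem Irr.tan_rule (h : Irr U T) {z y p : ℂ} {a b e f : Fin k} (hT : T y ⊆ {a, b, e, f})
    (yz : dist y z = 1) (py : dist p y = 1) (pz : dist p z = 1) (ha : a ∈ Pal U z)
    (hb : b ∈ Pal U z) (hs : Sd U z y a b) (hs' : Sd U p y e f)
    (hiso : ∀ᶠ u in 𝓝 y, u ≠ y → ¬ (a ∈ T u ∧ b ∈ T u)) (hb' : b ∈ Pal U (y + p - z)) :
    f ∉ Pal U (y + z - p) := by
  have yp : dist y p = 1 := by rw [dist_comm]; exact py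
  have hc0 : cr (y - z) (y - p) ≠ 0 := by
    intro h0
    rcases cr_zero_cases yz yp h0 with h1 | h1
    · rw [h1, dist_self] at pz; exact zero_ne_one pz
    · have h2 : p - z = 2 * (y - z) := by rw [h1]; ring
      have h3 : dist p z = 2 := by
        rw [dist_eq_norm, h2, norm_mul, ← dist_eq_norm, yz]; simp
      rw [pz] at h3; norm_num at h3
  obtain ⟨τ, hτ, hpos⟩ : ∃ τ : ℝ, (τ = 1 ∨ τ = -1) ∧ 0 < τ * cr (y - z) (y - p) := by
    rcases lt_or_gt_of_ne hc0 with h1 | h1
    · exact ⟨-1, Or.inr rfl, by linarith⟩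
    · exact ⟨1, Or.inl rfl, by linarith⟩
  -- the first branch
  have yq3 : dist y (y + z - p) = 1 := by
    rw [dist_eq_norm, show y - (y + z - p) = p - z by ring, ← dist_eq_norm]; exact pz
  have yq1 : dist y (y + p - z) = 1 := by
    rw [dist_eq_norm, show y - (y + p - z) = z - p by ring, ← dist_eq_norm, dist_comm]; exact pz
  have k1 := arc_out (C := z) yp hpos
  have k2 : ∀ᶠ t : ℝ in 𝓝[>] 0, dist (z + (y - z) * cis (τ * t)) (y + z - p) < 1 := by
    refine arc_in (C := z) yq3 ?_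
    have e1 : cr (y - z) (y - (y + z - p)) = -cr (y - z) (y - p) := by
      unfold cr; simp; ring
    rw [e1]; linarith
  have ht := tendsto_arc z y τ
  have hne : ∀ᶠ t : ℝ in 𝓝[>] 0, z + (y - z) * cis (τ * t) ≠ y := by
    filter_upwards [k1] with t h1 h2
    rw [h2, yp] at h1
    exact lt_irrefl _ h1
  have e1 : ∀ᶠ t : ℝ in 𝓝[>] 0, f ∈ Pal U (z + (y - z) * cis (τ * t)) ∧
      dist (z + (y - z) * cis (τ * t)) (y + z - p) < 1 := by
    filter_upwards [k1, k2, ht.eventually hs', ht.eventually (h.nhd y), ht.eventually hiso, hne]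
      with t g1 g2 g3 g4 g5 g6
    refine ⟨h.sub _ (h.mem_third (dist_arc yz _) ha hb (fun m hm => ?_) (g5 g6)), g2⟩
    rcases hT (g4 hm) with rfl | rfl | rfl | g7
    · exact Or.inl rfl
    · exact Or.inr (Or.inl rfl)
    · exact absurd (h.sub _ hm) (g3.1 g1)
    · exact Or.inr (Or.inr g7)
  -- the second branch
  have k3 : ∀ᶠ t : ℝ in 𝓝[>] 0,
      1 < dist (y + p - z + (y - (y + p - z)) * cis (-τ * t)) z := by
    refine arc_out (C := y + p - z) yz ?_
    have e2 : cr (y - (y + p - z)) (y - z) = -cr (y - z) (y - p) := by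
      unfold cr; simp; ring
    rw [e2]; linarith
  have k4 : ∀ᶠ t : ℝ in 𝓝[>] 0,
      1 < dist (y + p - z + (y - (y + p - z)) * cis (-τ * t)) p := by
    refine arc_out (C := y + p - z) yp ?_
    have e2 : cr (y - (y + p - z)) (y - p) = -cr (y - z) (y - p) := by
      unfold cr; simp; ring
    rw [e2]; linarith
  have hτ' : -τ = 1 ∨ -τ = -1 := by
    rcases hτ with rfl | rfl
    · exact Or.inr rfl
    · left; norm_num
  have k5 := arc_anti yq1 hτ'
  have e3 : 2 * y - (y + p - z) = y + z - p := by ring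
  rw [e3] at k5
  have ht' := tendsto_arc (y + p - z) y (-τ)
  have e2 : ∀ᶠ t : ℝ in 𝓝[>] 0,
      f ∈ Pal U (y + p - z + (y - (y + p - z)) * cis (-τ * t)) ∧
      1 < dist (y + p - z + (y - (y + p - z)) * cis (-τ * t)) (y + z - p) := by
    filter_upwards [k3, k4, k5, ht'.eventually hs, ht'.eventually hs', ht'.eventually (h.nhd y)]
      with t g1 g2 g3 g4 g5 g6
    refine ⟨h.sub _ ?_, g3⟩
    by_contra hf
    refine h.mx.notMem hb' (dist_arc yq1 (-τ * t)) (h.mem_of_single fun m hm => ?_)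
    rcases hT (g6 hm) with rfl | rfl | rfl | g7
    · exact absurd (h.sub _ hm) (g4.1 g1)
    · rfl
    · exact absurd (h.sub _ hm) (g5.1 g2)
    · rw [mem_singleton_iff] at g7; subst g7; exact absurd hm hf
  have o1 : (fun t : ℝ => z + (y - z) * cis (τ * t)) 0 = y := by simp [cis]
  have o2 : (fun t : ℝ => y + p - z + (y - (y + p - z)) * cis (-τ * t)) 0 = y := by simp [cis]
  exact h.mx.w_curves (cont_arc z y τ) (cont_arc (y + p - z) y (-τ)) o1 o2 e1 e2

/-- the tangent rule, all orientations: not all of `a, b` at `y + p - z` and `e, f` at `y + z - p` -/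
theorem Irr.tan_rule' (h : Irr U T) {z y p : ℂ} {a b e f : Fin k} (hT : T y ⊆ {a, b, e, f})
    (yz : dist y z = 1) (py : dist p y = 1) (pz : dist p z = 1) (ha : a ∈ Pal U z)
    (hb : b ∈ Pal U z) (hs : Sd U z y a b ∨ Sd U z y b a) (hs' : Sd U p y e f ∨ Sd U p y f e)
    (hiso : ∀ᶠ u in 𝓝 y, u ≠ y → ¬ (a ∈ T u ∧ b ∈ T u)) (a1 : a ∈ Pal U (y + p - z))
    (b1 : b ∈ Pal U (y + p - z)) (e3 : e ∈ Pal U (y + z - p)) (f3 : f ∈ Pal U (y + z - p)) :
    False := by
  have hT' : T y ⊆ {b, a, e, f} := fun i hi => by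
    have := hT hi
    simp only [mem_insert_iff, mem_singleton_iff] at this ⊢; tauto
  have hT2 : ∀ {x x' : Fin k}, T y ⊆ {x, x', e, f} → T y ⊆ {x, x', f, e} := fun h1 i hi => by
    have := h1 hi
    simp only [mem_insert_iff, mem_singleton_iff] at this ⊢; tauto
  have hiso' : ∀ᶠ u in 𝓝 y, u ≠ y → ¬ (b ∈ T u ∧ a ∈ T u) :=
    hiso.mono fun u h1 h2 h3 => h1 h2 ⟨h3.2, h3.1⟩
  rcases hs with hs | hs <;> rcases hs' with hs' | hs'
  · exact h.tan_rule hT yz py pz ha hb hs hs' hiso b1 f3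
  · exact h.tan_rule (hT2 hT) yz py pz ha hb hs hs' hiso b1 e3
  · exact h.tan_rule hT' yz py pz hb ha hs hs' hiso' a1 f3
  · exact h.tan_rule (hT2 hT') yz py pz hb ha hs hs' hiso' a1 e3

/-! ## triples of two-pair points -/

/-- exact points near a limit of exact points, different from it -/
theorem freq_ex {z q : ℂ} {P : Set (Fin k)} (hq : q ∈ closure (Ex T z P)) :
    ∃ᶠ u in 𝓝 q, u ≠ q ∧ u ∈ Ex T z P := by
  by_cases hqE : q ∈ Ex T z P
  · have h1 := freq_ne (z := z) (p := q) hqE.1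
    have h2 : ∃ᶠ u in 𝓝[sphere z 1] q, u ≠ q ∧ u ∈ Ex T z P := h1.and_eventually (ex_open hqE)
    exact h2.filter_mono nhdsWithin_le_nhds
  · rw [mem_closure_iff_frequently] at hq
    exact hq.mono fun u hu => ⟨fun h0 => hqE (h0 ▸ hu), hu⟩

theorem nodup_rot {a b c d e f : Fin k} (nd : [a, b, c, d, e, f].Nodup) :
    [e, f, c, d, a, b].Nodup := by
  simp only [List.nodup_cons, List.mem_cons, List.not_mem_nil, or_false, not_or, List.nodup_nil,
    and_true, not_false_eq_true] at nd ⊢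
  obtain ⟨⟨ab, ac, ad, ae, af⟩, ⟨bc, bd, be, bf⟩, ⟨cd, ce, cf⟩, ⟨de, df⟩, ef⟩ := nd
  exact ⟨⟨ef, Ne.symm ce, Ne.symm de, Ne.symm ae, Ne.symm be⟩,
    ⟨Ne.symm cf, Ne.symm df, Ne.symm af, Ne.symm bf⟩, ⟨cd, Ne.symm ac, Ne.symm bc⟩,
    ⟨Ne.symm ad, Ne.symm bd⟩, ab⟩

/-- a unit triangle: twice a vertex is not the sum of the others -/
theorem two_ne {z y p : ℂ} (yz : dist y z = 1) (pz : dist p z = 1) : z + p ≠ 2 * y := by
  intro h1
  have h2 : p - z = 2 * (y - z) := by linear_combination h1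
  have h3 : dist p z = 2 := by
    rw [dist_eq_norm, h2, norm_mul, ← dist_eq_norm, yz]; simp
  rw [pz] at h3; norm_num at h3

/-- **No triple of two-pair points** `ab|cd`, `ab|ef`, `cd|ef` if exact arcs of the pair which is not
common force exact arcs of the common pair at the other centre. -/
theorem Irr.t1_false {U : Fin 6 → Set ℂ} {T : ℂ → Set (Fin 6)} (h : Irr U T) {z y p : ℂ}
    {a b c d e f : Fin 6} (nd : [a, b, c, d, e, f].Nodup) (hz : DPt T z a b c d)
    (hy : DPt T y a b e f) (hp : DPt T p c d e f) (yz : dist y z = 1) (pz : dist p z = 1)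
    (py : dist p y = 1)
    (R1 : ∀ u, dist u z = 1 → u + y ≠ 2 * z → T u = {c, d} → T (u + y - z) = {a, b})
    (R2 : ∀ u, dist u y = 1 → u + p ≠ 2 * y → T u = {a, b} → T (u + p - y) = {e, f})
    (R3 : ∀ u, dist u p = 1 → u + y ≠ 2 * p → T u = {c, d} → T (u + y - p) = {e, f})
    (R4 : ∀ u, dist u y = 1 → u + z ≠ 2 * y → T u = {e, f} → T (u + z - y) = {a, b}) :
    False := by
  have yp : dist y p = 1 := by rw [dist_comm]; exact py
  have zp : dist z p = 1 := by rw [dist_comm]; exact pz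
  have hd : ∀ {x x' u : ℂ}, dist u x = 1 → dist (u + x' - x) x' = 1 := by
    intro x x' u hu
    rw [dist_eq_norm, show u + x' - x - x' = u - x by ring, ← dist_eq_norm]; exact hu
  have isoe := h.iso hy.swap
  have isoa := h.iso hy
  -- `q3 = y + z - p`
  have q3z : dist (y + z - p) z = 1 := by
    rw [dist_eq_norm, show y + z - p - z = y - p by ring, ← dist_eq_norm]; exact yp
  have q3y : dist (y + z - p) y = 1 := by
    rw [dist_eq_norm, show y + z - p - y = z - p by ring, ← dist_eq_norm]; exact zp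
  have h3 : e ∈ T (y + z - p) ∧ f ∈ T (y + z - p) := by
    have S := S3.of_dpt h nd hz hy yz q3z q3y
    refine S.letters.resolve_left fun hcl => ?_
    have hne : ∀ᶠ u in 𝓝 (y + z - p), u + y ≠ 2 * z := by
      have hc : Continuous fun u : ℂ => u + y := by fun_prop
      refine (hc.tendsto _).eventually (isOpen_ne.mem_nhds ?_)
      intro h0
      exact two_ne (z := z) (p := p) yz pz (by linear_combination -h0)
    have hcv : Tendsto (fun u : ℂ => u + p - z) (𝓝 (y + z - p)) (𝓝 y) := by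
      have hc : Continuous fun u : ℂ => u + p - z := by fun_prop
      have := hc.tendsto (y + z - p)
      rwa [show y + z - p + p - z = y by ring] at this
    obtain ⟨u, ⟨g1, g2⟩, g3, g4⟩ := ((freq_ex hcl).and_eventually
      (hne.and (hcv.eventually isoe))).exists
    have k1 := R1 u g2.1 g3 (ex_self g2)
    have k2 := R2 (u + y - z) (hd g2.1) (fun h0 => g1 (by linear_combination h0)) k1
    rw [show u + y - z + p - y = u + p - z by ring] at k2
    exact g4 (fun h0 => g1 (by linear_combination h0))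
      ⟨h.sub _ (by rw [k2]; simp), h.sub _ (by rw [k2]; simp)⟩
  -- `q1 = y + p - z`
  have q1p : dist (y + p - z) p = 1 := by
    rw [dist_eq_norm, show y + p - z - p = y - z by ring, ← dist_eq_norm]; exact yz
  have q1y : dist (y + p - z) y = 1 := by
    rw [dist_eq_norm, show y + p - z - y = p - z by ring, ← dist_eq_norm]; exact pz
  have h1 : a ∈ T (y + p - z) ∧ b ∈ T (y + p - z) := by
    have S := S3.of_dpt h (nodup_rot nd) hp.swap hy.swap yp q1p q1y
    refine S.letters.resolve_left fun hcl => ?_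
    have hne : ∀ᶠ u in 𝓝 (y + p - z), u + y ≠ 2 * p := by
      have hc : Continuous fun u : ℂ => u + y := by fun_prop
      refine (hc.tendsto _).eventually (isOpen_ne.mem_nhds ?_)
      intro h0
      exact two_ne (z := z) (p := p) yz pz (by linear_combination -h0)
    have hcv : Tendsto (fun u : ℂ => u + z - p) (𝓝 (y + p - z)) (𝓝 y) := by
      have hc : Continuous fun u : ℂ => u + z - p := by fun_prop
      have := hc.tendsto (y + p - z)
      rwa [show y + p - z + z - p = y by ring] at this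
    obtain ⟨u, ⟨g1, g2⟩, g3, g4⟩ := ((freq_ex hcl).and_eventually
      (hne.and (hcv.eventually isoa))).exists
    have k1 := R3 u g2.1 g3 (ex_self g2)
    have k2 := R4 (u + y - p) (hd g2.1) (fun h0 => g1 (by linear_combination h0)) k1
    rw [show u + y - p + z - y = u + z - p by ring] at k2
    exact g4 (fun h0 => g1 (by linear_combination h0))
      ⟨h.sub _ (by rw [k2]; simp), h.sub _ (by rw [k2]; simp)⟩
  refine h.tan_rule' (T := T) (z := z) (y := y) (p := p) (a := a) (b := b) (e := e) (f := f)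
    hy.pal.le yz py pz (h.sub _ (by rw [hz.pal]; simp)) (h.sub _ (by rw [hz.pal]; simp))
    (h.sides hz yz) (h.sides hp.swap yp) ?_ (h.sub _ h1.1) (h.sub _ h1.2) (h.sub _ h3.1)
    (h.sub _ h3.2)
  exact isoa.mono fun u k1 k2 k3 => k1 k2 ⟨h.sub _ k3.1, h.sub _ k3.2⟩

end Vale.Agent.P032.Six
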