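import Vale.Agent.P032.R2.H171.Wedge
import Vale.Agent.P032.R2.H784.Iso
import Vale.Agent.P032.S5.H172.Rhombus

/-!
# P032: identity points, the branch rule, the edge rule and the antipode rule at two-pair points

No tameness and no bound on the orders of other points.

* `Irr.cover_one`, `Irr.cover_two`: a point of `S(c) ∩ S(c')`, `T c ∪ T c'` = everything.
* `Irr.hub_branch`: if points with the colours `i, j` (one of each pair of the two-pair point `y`)
  accumulate at `y` on one side of a circle through `y` whose centre has both colours then the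
  palette is exactly `{i, j}` on that side near `y`.
* `Irr.hub_nv` (antipode rule): then the outer one of `i, j` is not a colour of `2 y - z`.
* `Irr.hub_edge` (edge rule): the centre `z` is the only two-pair point on `S(y)` with that pair.
* `Irr.two_branch`, `Irr.two_nv`, `Irr.two_edge`: the same at a point `V` with three colours which
  is seen by a second two-pair point.
-/

open Set Filter Topology Metric

noncomputable section

namespace Vale.Agent.P032.Six

variable {k : ℕ} {U : Fin k → Set ℂ} {T : ℂ → Set (Fin k)}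

/-! ## points seen from two centres which have all colours -/

/-- a point at distance one from `c` and `c'` with `T c ∪ T c'` everything has two colours -/
theorem Irr.cover_one (h : Irr U T) {c c' x : ℂ} (hcov : ∀ i, i ∈ T c ∨ i ∈ T c')
    (h1 : dist x c = 1) (h2 : dist x c' = 1) : 2 ≤ (T x).ncard := by
  by_contra hcon
  obtain ⟨i, hi⟩ := h.ne x
  have h3 : T x ⊆ {i} := by
    intro j hj
    by_contra hji
    have h4 : ({i, j} : Set (Fin k)) ⊆ T x := by
      rintro m (rfl | hm)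
      · exact hi
      · rw [mem_singleton_iff] at hm; subst hm; exact hj
    have h5 := Set.ncard_le_ncard h4 (Set.toFinite _)
    rw [Set.ncard_pair (fun e => hji (by rw [e]; rfl))] at h5
    exact hcon h5
  have h4 : x ∈ U i := h.mem_of_single h3
  rcases hcov i with h5 | h5
  · exact h.mx.notMem (h.sub _ h5) h1 h4
  · exact h.mx.notMem (h.sub _ h5) h2 h4

/-- the palette of such a point, if it has two colours and the circles cross, is contained in one of
the palettes and disjoint from the other one -/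
theorem Irr.cover_two (h : Irr U T) {c c' x : ℂ} (hcov : ∀ i, i ∈ T c ∨ i ∈ T c')
    (h1 : dist x c = 1) (h2 : dist x c' = 1) (n1 : c ≠ c') (n2 : c + c' ≠ 2 * x)
    (hx : (T x).ncard = 2) :
    (T x ⊆ T c ∧ ∀ i ∈ T x, i ∉ T c') ∨ (T x ⊆ T c' ∧ ∀ i ∈ T x, i ∉ T c) := by
  obtain ⟨i, j, hij, hxe⟩ := Set.ncard_eq_two.1 hx
  have key : ∀ m n : Fin k, T x ⊆ {m, n} → m ∈ T c → n ∈ T c' → False := by
    intro m n h3 h4 h5
    rcases h.lemmaB h3 h1 h2 (h.sub _ h4) (h.sub _ h5) with h6 | h6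
    · exact n1 h6.symm
    · exact n2 (by rw [add_comm]; exact h6)
  have kij := key i j (by rw [hxe])
  have kji := key j i (by rw [hxe, pair_comm])
  rcases hcov i with hi | hi
  · left
    have hj' : j ∉ T c' := kij hi
    have hj : j ∈ T c := (hcov j).resolve_right hj'
    have hi' : i ∉ T c' := kji hj
    rw [hxe]
    refine ⟨?_, ?_⟩
    · rintro m (rfl | hm)
      · exact hi
      · rw [mem_singleton_iff] at hm; subst hm; exact hj
    · rintro m (rfl | hm)
      · exact hi'
      · rw [mem_singleton_iff] at hm; subst hm; exact hj'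
  · right
    have hj' : j ∉ T c := fun hj => kji hj hi
    have hj : j ∈ T c' := (hcov j).resolve_left hj'
    have hi' : i ∉ T c := fun hi2 => kij hi2 hj
    rw [hxe]
    refine ⟨?_, ?_⟩
    · rintro m (rfl | hm)
      · exact hi
      · rw [mem_singleton_iff] at hm; subst hm; exact hj
    · rintro m (rfl | hm)
      · exact hi'
      · rw [mem_singleton_iff] at hm; subst hm; exact hj'

/-! ## branches -/

/-- colours `i, j` of the centre, palettes inside `{i, j}`: the palette is `{i, j}` -/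
theorem Irr.eq_pair_of_sub (h : Irr U T) {x z : ℂ} {i j : Fin k} (hd : dist x z = 1)
    (hi : i ∈ Pal U z) (hj : j ∈ Pal U z) (hs : T x ⊆ {i, j}) : T x = {i, j} := by
  have hiU : x ∉ U i := h.mx.notMem hi hd
  have hjU : x ∉ U j := h.mx.notMem hj hd
  refine Subset.antisymm hs ?_
  rintro m (rfl | hm)
  · by_contra hm
    refine hjU (h.mem_of_single fun l hl => ?_)
    rcases hs hl with rfl | h1
    · exact absurd hl hm
    · exact h1
  · rw [mem_singleton_iff] at hm
    subst hm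
    by_contra hm
    refine hiU (h.mem_of_single fun l hl => ?_)
    rcases hs hl with rfl | h1
    · rfl
    · rw [mem_singleton_iff] at h1
      subst h1
      exact absurd hl hm

/-- near `y`, where one side of `S(g)` has no `i` and the other side no `l`: along a branch of
another circle with `i` frequent there is no `l` -/
theorem no_of_sep {y z g : ℂ} {i l : Fin k} {τ : ℝ} (hg : dist y g = 1)
    (hs : Sd U g y i l ∨ Sd U g y l i) (hτ : τ = 1 ∨ τ = -1) (hcr : cr (y - z) (y - g) ≠ 0)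
    (hf : ∃ᶠ t : ℝ in 𝓝[>] 0, i ∈ Pal U (z + (y - z) * cis (τ * t))) :
    ∀ᶠ t : ℝ in 𝓝[>] 0, l ∉ Pal U (z + (y - z) * cis (τ * t)) := by
  have hτ0 : τ ≠ 0 := by rcases hτ with h1 | h1 <;> rw [h1] <;> norm_num
  have ht := tendsto_arc z y τ
  rcases lt_or_gt_of_ne (mul_ne_zero hτ0 hcr) with h1 | h1
  · have h2 := arc_in (C := z) hg (τ := τ) h1
    rcases hs with hs | hs
    · filter_upwards [h2, ht.eventually hs] with t h3 h4
      exact h4.2 h3
    · exfalso
      obtain ⟨t, h3, h4, h5⟩ := (hf.and_eventually (h2.and (ht.eventually hs))).exists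
      exact (h5.2 h4) h3
  · have h2 := arc_out (C := z) hg (τ := τ) h1
    rcases hs with hs | hs
    · exfalso
      obtain ⟨t, h3, h4, h5⟩ := (hf.and_eventually (h2.and (ht.eventually hs))).exists
      exact (h5.1 h4) h3
    · filter_upwards [h2, ht.eventually hs] with t h3 h4
      exact h4.1 h3

/-- a centre of an exact arc of `S(y)` which separates the two colours near `y`, off a line -/
theorem Irr.exists_sep (h : Irr U T) {y z : ℂ} {a b c d : Fin k} (hy : DPt T y a b c d)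
    (hz : dist y z = 1) :
    ∃ g, dist y g = 1 ∧ cr (y - z) (y - g) ≠ 0 ∧ (Sd U g y a b ∨ Sd U g y b a) := by
  obtain ⟨p, hp⟩ := hy.arc1
  obtain ⟨g, hg, hgz, hgz2⟩ := hp.exists_off_line (y := z)
  have hzy : dist z y = 1 := by rw [dist_comm]; exact hz
  refine ⟨g, by rw [dist_comm]; exact hg.1, ?_, ?_⟩
  · have h1 := cr_ne_of hg.1 hzy hgz hgz2
    intro h2
    apply h1
    unfold cr at h2 ⊢
    simp only [Complex.sub_re, Complex.sub_im] at h2 ⊢
    linarith
  · rcases h.sides hy hg.1 with hs | hs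
    · exact Or.inl (h.sd_center hg hs)
    · exact Or.inr (h.sd_center (a := b) (b := a) (by rwa [pair_comm]) hs)

/-- **BRANCH RULE** at a two-pair point `y = {i, l | j, m}` -/
theorem Irr.hub_branch (h : Irr U T) {y z : ℂ} {i l j m : Fin k} (hy : DPt T y i l j m)
    (hz : dist y z = 1) (hi : i ∈ Pal U z) (hj : j ∈ Pal U z) {τ : ℝ} (hτ : τ = 1 ∨ τ = -1)
    (hf : ∃ᶠ t : ℝ in 𝓝[>] 0, i ∈ Pal U (z + (y - z) * cis (τ * t)) ∧
      j ∈ Pal U (z + (y - z) * cis (τ * t))) :
    ∀ᶠ t : ℝ in 𝓝[>] 0, T (z + (y - z) * cis (τ * t)) = {i, j} := by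
  obtain ⟨g, hg, hcr, hs⟩ := h.exists_sep hy hz
  obtain ⟨g', hg', hcr', hs'⟩ := h.exists_sep hy.swap hz
  have h1 := no_of_sep hg hs hτ hcr (hf.mono fun t ht => ht.1)
  have h2 := no_of_sep hg' hs' hτ hcr' (hf.mono fun t ht => ht.2)
  filter_upwards [h1, h2, (tendsto_arc z y τ).eventually (h.nhd y)] with t h3 h4 h5
  refine h.eq_pair_of_sub (dist_arc hz _) hi hj fun n hn => ?_
  have h6 := h5 hn
  rw [hy.pal] at h6
  rcases h6 with rfl | rfl | rfl | h6
  · exact Or.inl rfl
  · exact absurd (h.sub _ hn) h3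
  · exact Or.inr rfl
  · rw [mem_singleton_iff] at h6
    subst h6
    exact absurd (h.sub _ hn) h4

theorem cis_zero_ident : cis 0 = 1 := by simp [cis]

/-- accumulating exact arcs: one of the two sides -/
theorem Acc.branch {y z : ℂ} {P : Set (Fin k)} (h : Acc T z P y) (hP : T y ≠ P) :
    ∃ τ : ℝ, (τ = 1 ∨ τ = -1) ∧ ∃ᶠ t : ℝ in 𝓝[>] 0, T (z + (y - z) * cis (τ * t)) = P := by
  by_contra hcon
  push Not at hcon
  have h1 := hcon 1 (Or.inl rfl)
  have h2 := hcon (-1) (Or.inr rfl)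
  obtain ⟨δ1, hδ1, k1⟩ := exists_pos_of_ev h1
  obtain ⟨δ2, hδ2, k2⟩ := exists_pos_of_ev h2
  obtain ⟨q, hq, hqz, hqP⟩ := h _ (near_circle h.dist (lt_min hδ1 hδ2))
  obtain ⟨t, ht, rfl⟩ := hq hqz
  have hT : T (z + (y - z) * cis t) = P := hqP.self_of_nhdsWithin hqz
  rcases lt_trichotomy t 0 with h3 | h3 | h3
  · have h4 := k2 (-t) (by linarith) (by rw [abs_of_neg h3] at ht; exact ht.trans_le (min_le_right _ _))
    apply h4
    rw [neg_one_mul, neg_neg]
    exact hT
  · rw [h3, cis_zero_ident, mul_one, add_sub_cancel] at hT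
    exact hP hT
  · have h4 := k1 t h3 (by rw [abs_of_pos h3] at ht; exact ht.trans_le (min_le_left _ _))
    apply h4
    rw [one_mul]
    exact hT

/-! ## the antipode rule -/

/-- a ray at `y` away from `z` and a branch of `S(z)` at `y` in the colour `j` -/
theorem Mx.nv (h : Mx U) {j : Fin k} {y z ρ : ℂ} {τ : ℝ} (hτ : τ = 1 ∨ τ = -1)
    (hz : dist y z = 1) (hray : Ray (U j) y ρ) (hip : 0 < ip ρ (y - z))
    (hbr : ∀ᶠ t : ℝ in 𝓝[>] 0, j ∈ Pal U (z + (y - z) * cis (τ * t))) :
    j ∉ Pal U (2 * y - z) := by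
  have e1 : 2 * y - z - y = y - z := by ring
  refine h.anti_core (z := y) (V := 2 * y - z) (u := ρ) hτ ?_ hray (by rw [e1]; exact hip) ?_
  · rw [dist_eq_norm, e1, ← dist_eq_norm]; exact hz
  · filter_upwards [hbr] with t ht
    have e2 : 2 * y - (2 * y - z) + (2 * y - z - y) * cis (τ * t) =
        z + (y - z) * cis (τ * t) := by ring
    rw [e2]; exact ht

/-- at a two-pair point every colour has a ray off a given line -/
theorem Irr.exists_ray (h : Irr U T) {y z : ℂ} {j m i l : Fin k} (hy : DPt T y j m i l)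
    (hz : dist y z = 1) : ∃ ρ, Ray (U j) y ρ ∧ ip ρ (z - y) ≠ 0 := by
  obtain ⟨p, hp⟩ := hy.arc2
  obtain ⟨g, hg, hgz, hgz2⟩ := hp.exists_off_line (y := z)
  have hcr := cr_ne_of hg.1 (by rw [dist_comm]; exact hz) hgz hgz2
  rw [← ip_I] at hcr
  rcases h.d0 hy hg with ⟨h1, -⟩ | ⟨-, h1⟩
  · exact ⟨_, h1, hcr⟩
  · exact ⟨_, h1, by rw [ip_neg]; exact neg_ne_zero.2 hcr⟩

/-- the ray of the outer colour points away from the centre -/
theorem Irr.exists_ray_out (h : Irr U T) {y z : ℂ} {j m i l : Fin k} (hy : DPt T y j m i l)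
    (hz : dist y z = 1) (hout : ∀ᶠ x in 𝓝 y, dist x z < 1 → j ∉ Pal U x) :
    ∃ ρ, Ray (U j) y ρ ∧ 0 < ip ρ (y - z) := by
  obtain ⟨ρ, hr, hip⟩ := h.exists_ray hy hz
  refine ⟨ρ, hr, ?_⟩
  have e1 : ip ρ (y - z) = -ip ρ (z - y) := by unfold ip; simp; ring
  rcases lt_or_gt_of_ne hip with h1 | h1
  · rw [e1]; linarith
  · exfalso
    obtain ⟨r, h2, h3, h4⟩ := ((show ∀ᶠ r : ℝ in 𝓝[>] 0, y + r * ρ ∈ U j from hr).and
      ((ray_in hz h1).and ((tendsto_ray y ρ).eventually hout))).exists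
    exact h4 h3 (subset_closure h2)

/-- **ANTIPODE RULE** at a two-pair point `y`: the outer colour of the branch is not in `2 y - z` -/
theorem Irr.hub_nv (h : Irr U T) {y z : ℂ} {j m i l : Fin k} (hy : DPt T y j m i l)
    (hz : dist y z = 1) (hout : ∀ᶠ x in 𝓝 y, dist x z < 1 → j ∉ Pal U x) {τ : ℝ}
    (hτ : τ = 1 ∨ τ = -1)
    (hbr : ∀ᶠ t : ℝ in 𝓝[>] 0, j ∈ Pal U (z + (y - z) * cis (τ * t))) :
    j ∉ Pal U (2 * y - z) := by
  obtain ⟨ρ, hr, hip⟩ := h.exists_ray_out hy hz hout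
  exact h.mx.nv hτ hz hr hip hbr

/-- the antipode rule for two two-pair points: the exact `{i, j}`-arcs of `z` accumulate at `y`,
the colour `j` is outside `S(z)` near `y` -/
theorem Irr.hub_nv_acc (h : Irr U T) {y z : ℂ} {i l j m : Fin k} (hy : DPt T y i l j m)
    (hi : i ∈ Pal U z) (hj : j ∈ Pal U z) (hs : Sd U z y i j) (ha : Acc T z {i, j} y) :
    j ∉ Pal U (2 * y - z) := by
  have hne : T y ≠ {i, j} := by
    intro h0
    have : l ∈ T y := by rw [hy.pal]; simp
    rw [h0] at this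
    rcases this with h1 | h1
    · exact hy.ab h1.symm
    · exact hy.bc h1
  obtain ⟨τ, hτ, hf⟩ := ha.branch hne
  have hb := h.hub_branch hy ha.dist hi hj hτ (hf.mono fun t ht =>
    ⟨h.sub _ (by rw [ht]; simp), h.sub _ (by rw [ht]; simp)⟩)
  exact h.hub_nv hy.swap ha.dist (hs.mono fun x hx => hx.2) hτ
    (hb.mono fun t ht => h.sub _ (by rw [ht]; simp))

/-! ## the edge rule -/

theorem cr_zero_cases {y z z' : ℂ} (hz : dist y z = 1) (hz' : dist y z' = 1)
    (hc : cr (y - z) (y - z') = 0) : z' = z ∨ z' = 2 * y - z := by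
  rcases cr_zero (by rw [← dist_eq_norm]; exact hz) (by rw [← dist_eq_norm]; exact hz') hc
    with h1 | h1
  · left; linear_combination h1
  · right; linear_combination -h1

/-- if `i` and `j` are on different sides of `S(z')` near `y` and both are frequent on a branch of
`S(z)` then `z' = z` or `z' = 2 y - z` -/
theorem edge_line {y z z' : ℂ} {i j : Fin k} {τ : ℝ} (hz : dist y z = 1) (hz' : dist y z' = 1)
    (hs : Sd U z' y i j ∨ Sd U z' y j i) (hτ : τ = 1 ∨ τ = -1)
    (hf : ∃ᶠ t : ℝ in 𝓝[>] 0, i ∈ Pal U (z + (y - z) * cis (τ * t)) ∧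
      j ∈ Pal U (z + (y - z) * cis (τ * t))) : z' = z ∨ z' = 2 * y - z := by
  by_contra hcon
  have hcr : cr (y - z) (y - z') ≠ 0 := fun h0 => hcon (cr_zero_cases hz hz' h0)
  have h1 := no_of_sep hz' hs hτ hcr (hf.mono fun t ht => ht.1)
  obtain ⟨t, h2, h3⟩ := (hf.and_eventually h1).exists
  exact h3 h2.2

/-- **EDGE RULE.** The exact `{i, j}`-arcs of the two-pair point `z` accumulate at the two-pair
point `y`; `z'` on `S(y)` has both colours and they are on different sides of `S(z')` near `y`.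
Then `z' = z`. -/
theorem Irr.hub_edge' (h : Irr U T) {y z z' : ℂ} {i l j m : Fin k} (hy : DPt T y i l j m)
    (hi : i ∈ Pal U z) (hj : j ∈ Pal U z) (hs : Sd U z y i j ∨ Sd U z y j i)
    (ha : Acc T z {i, j} y) (hz' : dist y z' = 1) (hi' : i ∈ Pal U z') (hj' : j ∈ Pal U z')
    (hs' : Sd U z' y i j ∨ Sd U z' y j i) : z' = z := by
  have hne : T y ≠ {i, j} := by
    intro h0
    have : l ∈ T y := by rw [hy.pal]; simp
    rw [h0] at this
    rcases this with h1 | h1
    · exact hy.ab h1.symm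
    · exact hy.bc h1
  obtain ⟨τ, hτ, hf⟩ := ha.branch hne
  rcases edge_line ha.dist hz' hs' hτ (hf.mono fun t ht =>
    ⟨h.sub _ (by rw [ht]; simp), h.sub _ (by rw [ht]; simp)⟩) with h1 | h1
  · exact h1
  · exfalso
    rcases hs with hs | hs
    · exact h.hub_nv_acc hy hi hj hs ha (by rw [← h1]; exact hj')
    · exact h.hub_nv_acc hy.swap hj hi hs (by rw [pair_comm]; exact ha) (by rw [← h1]; exact hi')

/-- **EDGE RULE**, three two-pair points -/
theorem Irr.hub_edge (h : Irr U T) {y z z' : ℂ} {i l j m c d c' d' : Fin k}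
    (hy : DPt T y i l j m) (hz : DPt T z i j c d) (hz' : DPt T z' i j c' d')
    (ha : Acc T z {i, j} y) (hd' : dist y z' = 1) : z' = z :=
  h.hub_edge' hy (h.sub _ (by rw [hz.pal]; simp)) (h.sub _ (by rw [hz.pal]; simp))
    (h.sides hz ha.dist) ha hd' (h.sub _ (by rw [hz'.pal]; simp))
    (h.sub _ (by rw [hz'.pal]; simp)) (h.sides hz' hd')

/-! ## the same at a point with three colours seen by a second centre -/

/-- `e` and one of `a, b` are on different sides of `S(w)` near `V` -/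
def SpI (U : Fin k → Set ℂ) (w V : ℂ) (e a b : Fin k) : Prop :=
  ∃ x, (x = a ∨ x = b) ∧ (Sd U w V e x ∨ Sd U w V x e)

theorem SpI.swap {w V : ℂ} {e a b : Fin k} (h : SpI U w V e a b) : SpI U w V e b a := by
  obtain ⟨x, hx, h1⟩ := h
  exact ⟨x, hx.symm, h1⟩

/-- **branch rule** at a point with three colours -/
theorem Irr.two_branch (h : Irr U T) {V z w : ℂ} {a b e : Fin k} (hV : T V ⊆ {a, b, e})
    (hz : dist V z = 1) (hw : dist V w = 1) (n1 : w ≠ z) (n2 : w ≠ 2 * V - z)
    (ha : a ∈ Pal U z) (hb : b ∈ Pal U z) (hs : SpI U w V e a b) {τ : ℝ} (hτ : τ = 1 ∨ τ = -1)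
    (hf : ∃ᶠ t : ℝ in 𝓝[>] 0, a ∈ Pal U (z + (V - z) * cis (τ * t)) ∧
      b ∈ Pal U (z + (V - z) * cis (τ * t))) :
    ∀ᶠ t : ℝ in 𝓝[>] 0, T (z + (V - z) * cis (τ * t)) = {a, b} := by
  obtain ⟨x, hx, hs⟩ := hs
  have hcr : cr (V - z) (V - w) ≠ 0 := by
    intro h0
    rcases cr_zero_cases hz hw h0 with h1 | h1
    · exact n1 h1
    · exact n2 h1
  have hfx : ∃ᶠ t : ℝ in 𝓝[>] 0, x ∈ Pal U (z + (V - z) * cis (τ * t)) := by
    rcases hx with rfl | rfl
    · exact hf.mono fun t ht => ht.1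
    · exact hf.mono fun t ht => ht.2
  have h1 := no_of_sep (i := x) (l := e) hw hs.symm hτ hcr hfx
  filter_upwards [h1, (tendsto_arc z V τ).eventually (h.nhd V)] with t h3 h5
  refine h.eq_pair_of_sub (dist_arc hz _) ha hb fun n hn => ?_
  rcases hV (h5 hn) with rfl | rfl | h6
  · exact Or.inl rfl
  · exact Or.inr rfl
  · rw [mem_singleton_iff] at h6
    subst h6
    exact absurd (h.sub _ hn) h3

/-- a vector with given products -/
theorem exists_ip {n1 n2 : ℂ} (hc : cr n1 n2 ≠ 0) (x y : ℝ) :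
    ∃ ρ : ℂ, ip ρ n1 = x ∧ ip ρ n2 = y := by
  refine ⟨((-x / cr n1 n2 : ℝ) : ℂ) * (Complex.I * n2) + ((y / cr n1 n2 : ℝ) : ℂ) * (Complex.I * n1),
    ?_, ?_⟩
  · have e : ∀ a b c : ℂ, ip (a + b) c = ip a c + ip b c := by
      intro a b c; unfold ip; simp; ring
    rw [e, ip_smul, ip_smul, ip_I, ip_I]
    have h1 : cr n1 n1 = 0 := by unfold cr; ring
    rw [h1, cr_swap n2 n1]
    field_simp
    ring
  · have e : ∀ a b c : ℂ, ip (a + b) c = ip a c + ip b c := by
      intro a b c; unfold ip; simp; ring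
    rw [e, ip_smul, ip_smul, ip_I, ip_I]
    have h1 : cr n2 n2 = 0 := by unfold cr; ring
    rw [h1]
    field_simp
    ring

/-- the ray of the outer colour at a point with three colours -/
theorem Irr.two_ray (h : Irr U T) {V z w : ℂ} {a b e : Fin k} (hV : T V ⊆ {a, b, e})
    (hz : dist V z = 1) (hw : dist V w = 1) (n1 : w ≠ z) (n2 : w ≠ 2 * V - z)
    (hs : Sd U z V a b) (hsp : SpI U w V e a b) : ∃ ρ, Ray (U b) V ρ ∧ 0 < ip ρ (V - z) := by
  obtain ⟨x, hx, hs'⟩ := hsp
  have hcr : cr (z - V) (w - V) ≠ 0 := by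
    intro h0
    have h1 : cr (V - z) (V - w) = 0 := by
      rw [← h0]; unfold cr; simp; ring
    rcases cr_zero_cases hz hw h1 with h1 | h1
    · exact n1 h1
    · exact n2 h1
  obtain ⟨σ, hσ⟩ : ∃ σ : ℝ, ∀ ρ : ℂ, ip ρ (w - V) = σ →
      ∀ᶠ r : ℝ in 𝓝[>] 0, e ∉ Pal U (V + r * ρ) := by
    rcases hs' with hs' | hs'
    · refine ⟨-1, fun ρ hρ => ?_⟩
      filter_upwards [ray_out hw (u := ρ) (by rw [hρ]; norm_num),
        (tendsto_ray V ρ).eventually hs'] with r h3 h4
      exact h4.1 h3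
    · refine ⟨1, fun ρ hρ => ?_⟩
      filter_upwards [ray_in hw (u := ρ) (by rw [hρ]; norm_num),
        (tendsto_ray V ρ).eventually hs'] with r h3 h4
      exact h4.2 h3
  obtain ⟨ρ, h1, h2⟩ := exists_ip hcr (-1) σ
  refine ⟨ρ, ?_, ?_⟩
  · filter_upwards [hσ ρ h2, ray_out hz (u := ρ) (by rw [h1]; norm_num),
      (tendsto_ray V ρ).eventually hs, (tendsto_ray V ρ).eventually (h.nhd V)] with r h3 h4 h5 h6
    refine h.mem_of_single fun n hn => ?_
    rcases hV (h6 hn) with rfl | rfl | h7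
    · exact absurd (h.sub _ hn) (h5.1 h4)
    · rfl
    · rw [mem_singleton_iff] at h7
      subst h7
      exact absurd (h.sub _ hn) h3
  · have e1 : ip ρ (V - z) = -ip ρ (z - V) := by unfold ip; simp; ring
    rw [e1, h1]; norm_num

/-- **ANTIPODE RULE** at a point with three colours -/
theorem Irr.two_nv (h : Irr U T) {V z w : ℂ} {a b e : Fin k} (hV : T V = {a, b, e})
    (hea : e ≠ a) (heb : e ≠ b) (hw : dist V w = 1) (n1 : w ≠ z) (n2 : w ≠ 2 * V - z)
    (ha : a ∈ Pal U z) (hb : b ∈ Pal U z) (hs : Sd U z V a b) (hsp : SpI U w V e a b)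
    (hacc : Acc T z {a, b} V) : b ∉ Pal U (2 * V - z) := by
  have hz : dist V z = 1 := hacc.dist
  have hne : T V ≠ {a, b} := by
    intro h0
    have : e ∈ T V := by rw [hV]; simp
    rw [h0] at this
    rcases this with h1 | h1
    · exact hea h1
    · exact heb h1
  obtain ⟨τ, hτ, hf⟩ := hacc.branch hne
  have hbr := h.two_branch (by rw [hV]) hz hw n1 n2 ha hb hsp hτ (hf.mono fun t ht =>
    ⟨h.sub _ (by rw [ht]; simp), h.sub _ (by rw [ht]; simp)⟩)
  obtain ⟨ρ, hr, hip⟩ := h.two_ray (by rw [hV]) hz hw n1 n2 hs hsp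
  exact h.mx.nv hτ hz hr hip (hbr.mono fun t ht => h.sub _ (by rw [ht]; simp))

/-- **EDGE RULE** at a point with three colours: `z` is the only centre on `S(V)` which separates
`a` and `b` and has both -/
theorem Irr.two_edge (h : Irr U T) {V z w z' : ℂ} {a b e : Fin k} (hV : T V = {a, b, e})
    (hea : e ≠ a) (heb : e ≠ b) (hw : dist V w = 1) (n1 : w ≠ z) (n2 : w ≠ 2 * V - z)
    (ha : a ∈ Pal U z) (hb : b ∈ Pal U z) (hs : Sd U z V a b ∨ Sd U z V b a)
    (hsp : SpI U w V e a b) (hacc : Acc T z {a, b} V) (hz' : dist V z' = 1)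
    (ha' : a ∈ Pal U z') (hb' : b ∈ Pal U z') (hs' : Sd U z' V a b ∨ Sd U z' V b a) : z' = z := by
  have hne : T V ≠ {a, b} := by
    intro h0
    have : e ∈ T V := by rw [hV]; simp
    rw [h0] at this
    rcases this with h1 | h1
    · exact hea h1
    · exact heb h1
  obtain ⟨τ, hτ, hf⟩ := hacc.branch hne
  rcases edge_line hacc.dist hz' hs' hτ (hf.mono fun t ht =>
    ⟨h.sub _ (by rw [ht]; simp), h.sub _ (by rw [ht]; simp)⟩) with h1 | h1
  · exact h1
  · exfalso
    rcases hs with hs | hs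
    · exact h.two_nv hV hea heb hw n1 n2 ha hb hs hsp hacc (by rw [← h1]; exact hb')
    · refine h.two_nv (a := b) (b := a) (e := e) (by rw [hV, insert_comm]) heb hea hw n1 n2 hb ha
        hs hsp.swap (by rw [pair_comm]; exact hacc) (by rw [← h1]; exact ha')

end Vale.Agent.P032.Six
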