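import Vale.Agent.P032.R2.H171.Wedge
import Vale.Agent.P032.R2.H784.Lim

/-!
# P032: tools for the local finiteness of full ends

`Irr.leg_side`: an exact arc does not cross the circle about a point which has a colour of its pair.
`Wd.factA`: a point of `S(v)` with two colours of a full end `v` is one of its three hubs.
`Wd.side3`: the leg of the third hub leaves `v` on a fixed side of the circle about the first hub.
`Irr.sep2`: two-pair points with the same palette and different pairs are far from each other.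
-/

open Set Filter Topology Metric

noncomputable section

namespace Vale.Agent.P032.Six

variable {k : ℕ} {U : Fin k → Set ℂ} {T : ℂ → Set (Fin k)}

theorem cis_zero171 : cis 0 = 1 := by simp [cis]

theorem continuous_leg (O v B : ℂ) (o s : ℝ) :
    Continuous fun t : ℝ => s * (dist (O + (v - O) * cis (o * t)) B - 1) := by
  have h1 : Continuous fun t : ℝ => O + (v - O) * cis (o * t) :=
    continuous_const.add (continuous_const.mul (continuous_cis.comp
      (continuous_const.mul continuous_id)))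
  exact continuous_const.mul ((h1.dist continuous_const).sub continuous_const)

/-- **an exact arc does not cross the circle about a point which has a colour of its pair** -/
theorem Irr.leg_side (h : Irr U T) {v O B : ℂ} {i j : Fin k} {o ℓ s : ℝ} (hO : dist v O = 1)
    (hOB : O ≠ B) (harc : ∀ t, 0 < t → t < ℓ → T (O + (v - O) * cis (o * t)) ⊆ {i, j})
    (hi : i ∈ Pal U B) (hj : j ∈ Pal U O) {t0 : ℝ} (h0 : t0 ∈ Icc 0 ℓ)
    (hneg : s * (dist (O + (v - O) * cis (o * t0)) B - 1) < 0) :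
    ∀ t ∈ Icc 0 ℓ, s * (dist (O + (v - O) * cis (o * t)) B - 1) ≤ 0 := by
  intro t1 h1
  by_contra hcon
  push Not at hcon
  have hs0 : s ≠ 0 := by
    rintro rfl
    simp at hneg
  obtain ⟨t2, ht2, hz⟩ := intermediate_value_uIcc
    (f := fun t : ℝ => s * (dist (O + (v - O) * cis (o * t)) B - 1))
    (a := t0) (b := t1) (continuous_leg O v B o s).continuousOn
    (show (0 : ℝ) ∈ _ by
      show (0 : ℝ) ∈ uIcc (s * (dist (O + (v - O) * cis (o * t0)) B - 1))
        (s * (dist (O + (v - O) * cis (o * t1)) B - 1))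
      rw [uIcc_of_le (by linarith)]
      exact ⟨hneg.le, hcon.le⟩)
  have hz : s * (dist (O + (v - O) * cis (o * t2)) B - 1) = 0 := hz
  have n0 : t2 ≠ t0 := by
    rintro rfl
    rw [hz] at hneg
    exact lt_irrefl _ hneg
  have n1 : t2 ≠ t1 := by
    rintro rfl
    rw [hz] at hcon
    exact lt_irrefl _ hcon
  have hpos : 0 < t2 ∧ t2 < ℓ := by
    rcases le_total t0 t1 with h2 | h2
    · rw [uIcc_of_le h2] at ht2
      exact ⟨lt_of_le_of_lt h0.1 (lt_of_le_of_ne ht2.1 (Ne.symm n0)),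
        lt_of_lt_of_le (lt_of_le_of_ne ht2.2 n1) h1.2⟩
    · rw [uIcc_of_ge h2] at ht2
      exact ⟨lt_of_le_of_lt h1.1 (lt_of_le_of_ne ht2.1 (Ne.symm n1)),
        lt_of_lt_of_le (lt_of_le_of_ne ht2.2 n0) h0.2⟩
  have hx : dist (O + (v - O) * cis (o * t2)) B = 1 := by
    rcases mul_eq_zero.1 hz with h2 | h2
    · exact absurd h2 hs0
    · linarith
  rcases h.lemmaB (harc t2 hpos.1 hpos.2) hx (dist_arc hO _) hi hj with h2 | h2
  · exact hOB h2
  · -- tangent circles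
    have hOB2 : dist O B = 2 := by
      have e1 : O - B = 2 * (O - (O + (v - O) * cis (o * t2))) := by linear_combination -h2
      rw [dist_eq_norm, e1, norm_mul, ← dist_eq_norm, dist_comm, dist_arc hO]
      norm_num
    have hge : ∀ t : ℝ, 0 ≤ dist (O + (v - O) * cis (o * t)) B - 1 := by
      intro t
      have h3 := dist_triangle O (O + (v - O) * cis (o * t)) B
      rw [dist_comm O (O + (v - O) * cis (o * t)), dist_arc hO, hOB2] at h3
      linarith
    rcases lt_or_gt_of_ne hs0 with h3 | h3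
    · have := mul_nonpos_of_nonpos_of_nonneg h3.le (hge t1)
      linarith
    · have := mul_nonneg h3.le (hge t0)
      linarith

/-- near `v` the palettes -/
theorem Wd.near {v M1 M2 M3 : ℂ} {a b e : Fin k} {s1 s2 s3 : ℝ}
    (W : Wd U T v M1 M2 M3 a b e s1 s2 s3) (h : Irr U T) :
    ∀ᶠ x in 𝓝 v, (∃ i, T x = {i}) ∨ x = v ∨ (dist x M1 = 1 ∧ T x = {a, b}) ∨
      (dist x M2 = 1 ∧ T x = {b, e}) ∨ (dist x M3 = 1 ∧ T x = {e, a}) := by
  obtain ⟨o1, o2, o3, ⟨-, r1⟩, ⟨-, r2⟩, ⟨-, r3⟩, -, -, -, hw⟩ := W.wedge h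
  obtain ⟨δ1, hδ1, k1⟩ := exists_pos_of_ev r1
  obtain ⟨δ2, hδ2, k2⟩ := exists_pos_of_ev r2
  obtain ⟨δ3, hδ3, k3⟩ := exists_pos_of_ev r3
  filter_upwards [hw (min δ1 (min δ2 δ3)) (lt_min hδ1 (lt_min hδ2 hδ3))] with x hx
  rcases hx with h1 | h1 | ⟨t, h1, h2, rfl⟩ | ⟨t, h1, h2, rfl⟩ | ⟨t, h1, h2, rfl⟩
  · exact Or.inl h1
  · exact Or.inr (Or.inl h1)
  · exact Or.inr (Or.inr (Or.inl ⟨dist_arc W.d1 _, k1 t h1 (h2.trans_le (min_le_left _ _))⟩))
  · exact Or.inr (Or.inr (Or.inr (Or.inl ⟨dist_arc W.d2 _, k2 t h1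
      (h2.trans_le ((min_le_right _ _).trans (min_le_left _ _)))⟩)))
  · exact Or.inr (Or.inr (Or.inr (Or.inr ⟨dist_arc W.d3 _, k3 t h1
      (h2.trans_le ((min_le_right _ _).trans (min_le_right _ _)))⟩)))

/-- near `v` a fixed point is `v` or absent -/
theorem ev_ne_or (v m : ℂ) : ∀ᶠ x in 𝓝 v, x ≠ m ∨ x = v := by
  by_cases hm : v = m
  · subst hm
    exact Eventually.of_forall fun x => (eq_or_ne x v).symm
  · filter_upwards [isOpen_ne.mem_nhds hm] with x hx
    exact Or.inl hx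

/-- **a point of `S(v)` with two colours of the full end `v` is one of the three hubs** -/
theorem Wd.factA {v M1 M2 M3 : ℂ} {a b e : Fin k} {s1 s2 s3 : ℝ}
    (W : Wd U T v M1 M2 M3 a b e s1 s2 s3) (h : Irr U T) {B : ℂ} (hd : dist v B = 1)
    (ha : a ∈ Pal U B) (hb : b ∈ Pal U B) : B = M1 ∨ B = M2 ∨ B = M3 := by
  by_contra hcon
  push Not at hcon
  obtain ⟨n1, n2, n3⟩ := hcon
  -- the palette is `{e}` on `S(B)` near `v`
  have key : ∀ᶠ x in 𝓝 v, dist x B = 1 → x ≠ v → T x = {e} := by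
    filter_upwards [W.near h, ev_ne_or v ((M1 + B) / 2), ev_ne_or v ((M2 + B) / 2),
      ev_ne_or v ((M3 + B) / 2), h.nhd v] with x h1 m1 m2 m3 hsub hxB hxv
    have m1 := m1.resolve_right hxv
    have m2 := m2.resolve_right hxv
    have m3 := m3.resolve_right hxv
    rcases h1 with ⟨i, hi⟩ | h1 | ⟨h1, h2⟩ | ⟨h1, h2⟩ | ⟨h1, h2⟩
    · have hiU : x ∈ U i := h.mem_of_single (by rw [hi])
      have hiB : i ∉ Pal U B := h.mx.notMem' hiU hxB
      have h3 : i ∈ ({a, b, e} : Set (Fin k)) := W.hT (hsub (by rw [hi]; rfl))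
      rcases h3 with rfl | rfl | h3
      · exact absurd ha hiB
      · exact absurd hb hiB
      · rw [mem_singleton_iff] at h3
        subst h3
        exact hi
    · exact absurd h1 hxv
    · rcases h.lemmaB (i := a) (j := b) (by rw [h2]) hxB h1 ha W.b1 with h3 | h3
      · exact absurd h3.symm n1
      · exact absurd (by rw [h3]; ring) m1
    · rcases h.lemmaB (i := b) (j := e) (by rw [h2]) hxB h1 hb W.e2 with h3 | h3
      · exact absurd h3.symm n2
      · exact absurd (by rw [h3]; ring) m2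
    · rcases h.lemmaB (i := a) (j := e) (by rw [h2, pair_comm]) hxB h1 ha W.e3 with h3 | h3
      · exact absurd h3.symm n3
      · exact absurd (by rw [h3]; ring) m3
  have e0 : ∀ {x N : ℂ} {s : ℝ}, dist v N = 1 → s * (dist x N - 1) ≠ 0 → x ≠ v := by
    intro x N s h1 h2 h3
    apply h2
    rw [h3, h1]; ring
  -- no crossing with `S(M2)`
  have c2 : cr (v - B) (v - M2) = 0 := by
    by_contra hc
    have hs : s2 ≠ 0 := by rcases W.q2 with h1 | h1 <;> rw [h1] <;> norm_num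
    obtain ⟨o, -, hneg⟩ : ∃ o : ℝ, (o = 1 ∨ o = -1) ∧ s2 * (o * cr (v - B) (v - M2)) < 0 := by
      rcases lt_or_gt_of_ne (mul_ne_zero hs hc) with h1 | h1
      · exact ⟨1, Or.inl rfl, by linarith⟩
      · exact ⟨-1, Or.inr rfl, by linarith⟩
    obtain ⟨t, h1, h2, h3⟩ := ((sgn_neg (M := B) W.d2 W.q2 hneg).and
      (((tendsto_arc B v o).eventually key).and ((tendsto_arc B v o).eventually W.o2))).exists
    have h4 := h2 (dist_arc hd _) (e0 W.d2 h1.ne)
    exact h3.2 h1 (h.sub _ (by rw [h4]; rfl))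
  have c3 : cr (v - B) (v - M3) = 0 := by
    by_contra hc
    have hs : s3 ≠ 0 := by rcases W.q3 with h1 | h1 <;> rw [h1] <;> norm_num
    obtain ⟨o, -, hpos⟩ : ∃ o : ℝ, (o = 1 ∨ o = -1) ∧ 0 < s3 * (o * cr (v - B) (v - M3)) := by
      rcases lt_or_gt_of_ne (mul_ne_zero hs hc) with h1 | h1
      · exact ⟨-1, Or.inr rfl, by linarith⟩
      · exact ⟨1, Or.inl rfl, by linarith⟩
    obtain ⟨t, h1, h2, h3⟩ := ((sgn_pos (M := B) W.d3 W.q3 hpos).and
      (((tendsto_arc B v o).eventually key).and ((tendsto_arc B v o).eventually W.o3))).exists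
    have h4 := h2 (dist_arc hd _) (e0 W.d3 h1.ne')
    exact h3.1 h1 (h.sub _ (by rw [h4]; rfl))
  have nB : ‖v - B‖ = 1 := by rw [← dist_eq_norm]; exact hd
  rcases cr_zero nB (by rw [← dist_eq_norm]; exact W.d2) c2 with h1 | h1
  · exact n2 (by linear_combination -h1)
  · rcases cr_zero nB (by rw [← dist_eq_norm]; exact W.d3) c3 with h2 | h2
    · exact n3 (by linear_combination -h2)
    · exact W.n23 (by linear_combination h2 - h1)

/-- **the leg of `M3` leaves `v` on the side `s1 * φ < 0` of `S(M1)`** -/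
theorem Wd.side3 {v M1 M2 M3 : ℂ} {a b e : Fin k} {s1 s2 s3 : ℝ}
    (W : Wd U T v M1 M2 M3 a b e s1 s2 s3) (h : Irr U T) (hab : a ≠ b) {o : ℝ}
    (ho : o = 1 ∨ o = -1)
    (harc : ∀ᶠ t : ℝ in 𝓝[>] 0, T (M3 + (v - M3) * cis (o * t)) = {e, a}) :
    ∀ᶠ t : ℝ in 𝓝[>] 0, s1 * (dist (M3 + (v - M3) * cis (o * t)) M1 - 1) < 0 := by
  obtain ⟨o', ho', h1, h2⟩ := W.rot.rot.opp h
  have hcase : o = o' ∨ o = -o' := by
    rcases ho with rfl | rfl <;> rcases ho' with rfl | rfl <;> norm_num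
  rcases hcase with rfl | rfl
  · exact sgn_neg W.d1 W.q1 h1
  · exfalso
    have g1 := sgn_pos W.d1 W.q1 (o := -o') (M := M3) (by linarith)
    have g2 := sgn_neg W.d2 W.q2 (o := -o') (M := M3) (by linarith)
    obtain ⟨t, k1, k2, k3, k4⟩ := (harc.and (g1.and (g2.and
      ((tendsto_arc M3 v (-o')).eventually (W.rot.rot.circ h))))).exists
    have k5 := (k4 (dist_arc W.d3 _)).2.2.2 ⟨k2, k3⟩
    rw [k1] at k5
    have : a ∈ ({b} : Set (Fin k)) := by rw [← k5]; simp
    exact hab this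

/-- **two-pair points with the same palette and different pairs are far from each other** -/
theorem Irr.sep2 {U : Fin 6 → Set ℂ} {T : ℂ → Set (Fin 6)} (h : Irr U T)
    (h4 : ∀ x, (T x).ncard ≤ 4) {K : Set ℂ} (hK : IsCompact K) :
    ∃ c > 0, ∀ x ∈ K, ∀ y ∈ K, ∀ a b m n, DPt T x a b m n → DPt T y a m b n → c ≤ dist x y := by
  by_contra hcon
  push Not at hcon
  have h1 : ∀ n : ℕ, ∃ p : ℂ × ℂ, p.1 ∈ K ∧ p.2 ∈ K ∧
      (∃ a b m l, DPt T p.1 a b m l ∧ DPt T p.2 a m b l) ∧ dist p.1 p.2 < 1 / (n + 1) := by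
    intro n
    obtain ⟨x, hx, y, hy, a, b, m, l, h2, h3, h4⟩ := hcon (1 / (n + 1)) (by positivity)
    exact ⟨(x, y), hx, hy, ⟨a, b, m, l, h2, h3⟩, h4⟩
  choose p hp1 hp2 hp3 hp4 using h1
  obtain ⟨q, hqK, φ, hφ, hlim0⟩ := hK.tendsto_subseq (fun n => hp1 n)
  have hlim : Tendsto (fun n => (p (φ n)).1) atTop (𝓝 q) := hlim0
  have hlim2 : Tendsto (fun n => (p (φ n)).2) atTop (𝓝 q) := by
    refine tendsto_of_tendsto_of_dist hlim ?_
    have h5 : Tendsto (fun n => 1 / ((φ n : ℝ) + 1)) atTop (𝓝 0) :=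
      (tendsto_one_div_add_atTop_nhds_zero_nat (𝕜 := ℝ)).comp hφ.tendsto_atTop
    refine squeeze_zero (fun n => dist_nonneg) (fun n => (hp4 (φ n)).le) h5
  -- the palette at the limit
  have hq4 : (T q).ncard = 4 := by
    obtain ⟨n, h5⟩ := (hlim.eventually (h.nhd q)).exists
    obtain ⟨a, b, m, l, h6, -⟩ := hp3 (φ n)
    have h7 := Set.ncard_le_ncard h5 (Set.toFinite _)
    have h8 : (T (p (φ n)).1).ncard = 4 := h6.card
    have h9 := h4 q
    omega
  obtain ⟨y, hy, hyz⟩ := h.exists_inside hq4 fun y _ => h4 y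
  obtain ⟨q1, -, hq1, hq2, hq3, hq5, hq6⟩ := h.arc_of_sub hy hyz univ_mem
  have hP : (T q1).ncard = 2 := by
    have := Set.ncard_sdiff (hq3.trans hyz) (Set.toFinite _)
    have := Set.ncard_le_ncard (hq3.trans hyz) (Set.toFinite _)
    omega
  have hA : Arc T q q1 (T q1) := ⟨hq1, hq2⟩
  obtain ⟨n, h5, h6, h7, h8⟩ := ((hlim.eventually (h.nhd q)).and ((hlim2.eventually (h.nhd q)).and
    ((hlim.eventually (h.arc_near hA hP)).and (hlim2.eventually (h.arc_near hA hP))))).exists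
  obtain ⟨a, b, m, l, g1, g2⟩ := hp3 (φ n)
  have t1 : T (p (φ n)).1 = T q :=
    Set.eq_of_subset_of_ncard_le h5 (by rw [hq4, g1.card]) (Set.toFinite _)
  have t2 : T (p (φ n)).2 = T q :=
    Set.eq_of_subset_of_ncard_le h6 (by rw [hq4, g2.card]) (Set.toFinite _)
  obtain ⟨r1, hr1⟩ := h7 (by rw [t1]; exact hq3.trans hyz)
  obtain ⟨r2, hr2⟩ := h8 (by rw [t2]; exact hq3.trans hyz)
  have u1 := h.twoPairs g1 r1 hr1.1 (by rw [hr1.mem]; exact hr1.2)
    (by rw [hr1.mem, t1]; exact hq3.trans hyz)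
  have u2 := h.twoPairs g2 r2 hr2.1 (by rw [hr2.mem]; exact hr2.2)
    (by rw [hr2.mem, t2]; exact hq3.trans hyz)
  rw [hr1.mem] at u1
  rw [hr2.mem] at u2
  -- `{a, b}` or `{m, l}`, `{a, m}` or `{b, l}`
  have hb : b ∈ T q1 ↔ a ∈ T q1 := by
    rcases u1 with u1 | u1 <;> rw [u1]
    · simp
    · simp [g1.ac, g1.ad, g1.bc, g1.bd]
  have hb' : b ∈ T q1 ↔ ¬ a ∈ T q1 := by
    rcases u2 with u2 | u2 <;> rw [u2]
    · simp [g1.ab.symm, g1.bc]
    · simp [g1.ab, g1.ad]
  tauto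

end Vale.Agent.P032.Six
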