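import Vale.Agent.P032.R2.H171.LF0

/-!
# P032: worlds of full ends

`HbL T v M i j k`: `T v = {i, j, k}`, `M` is a two-pair point with pair `{i, j}` and without `k`,
`dist v M = 1`.  `Wld T E`: axioms for the set `E` of full ends.
-/

open Set Filter Topology Metric

noncomputable section

namespace Vale.Agent.P032.Six

variable {U : Fin 6 → Set ℂ} {T : ℂ → Set (Fin 6)} {E : Set ℂ}

/-- a hub of a point of three colours -/
structure HbL (T : ℂ → Set (Fin 6)) (v M : ℂ) (i j k : Fin 6) : Prop where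
  pal : T v = {i, j, k}
  out : k ∉ T M
  dst : dist v M = 1
  dp : ∃ c d, DPt T M i j c d

/-- the leg of length `ℓ` on the side `o`: the open arc has the palette `{i, j}`, the other end is
in `E` -/
structure Leg (T : ℂ → Set (Fin 6)) (E : Set ℂ) (v M : ℂ) (i j : Fin 6) (o ℓ : ℝ) : Prop where
  o1 : o = 1 ∨ o = -1
  pos : 0 < ℓ
  arc : ∀ t, 0 < t → t < ℓ → T (M + (v - M) * cis (o * t)) = {i, j}
  fin : M + (v - M) * cis (o * ℓ) ∈ E

/-- **a world of full ends** -/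
structure Wld (T : ℂ → Set (Fin 6)) (E : Set ℂ) : Prop where
  card : ∀ v ∈ E, (T v).ncard = 3
  hub : ∀ v ∈ E, ∀ i j k, T v = {i, j, k} → ∃ M, HbL T v M i j k
  leg : ∀ v ∈ E, ∀ M i j k, HbL T v M i j k → ∃ o ℓ, Leg T E v M i j o ℓ
  rhomb : ∀ v ∈ E, ∀ M i j k, HbL T v M i j k →
    ∃ N, (HbL T v N i k j ∨ HbL T v N j k i) ∧ ∀ m, m ∈ T M ∨ m ∈ T N
  shift : ∀ v ∈ E, ∀ M i j k o ℓ, HbL T v M i j k → Leg T E v M i j o ℓ →
    T (M + (v - M) * cis (o * ℓ)) = T v →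
    ∃ w w', w' - w = M + (v - M) * cis (o * ℓ) - v ∧ dist w v ≤ 2 ∧ 5 ≤ (T w ∪ T w').ncard

namespace HbL

variable {v M : ℂ} {i j k : Fin 6}

theorem symm (H : HbL T v M i j k) : HbL T v M j i k where
  pal := by
    rw [H.pal]; ext m; simp only [mem_insert_iff, mem_singleton_iff]; tauto
  out := H.out
  dst := H.dst
  dp := by obtain ⟨c, d, hd⟩ := H.dp; exact ⟨c, d, hd.swap12⟩

theorem ij (H : HbL T v M i j k) : i ≠ j := by obtain ⟨c, d, hd⟩ := H.dp; exact hd.ab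

theorem i_mem (H : HbL T v M i j k) : i ∈ T M := by
  obtain ⟨c, d, hd⟩ := H.dp; rw [hd.pal]; simp

theorem j_mem (H : HbL T v M i j k) : j ∈ T M := H.symm.i_mem

theorem ik (H : HbL T v M i j k) : i ≠ k := by
  rintro rfl; exact H.out H.i_mem

theorem jk (H : HbL T v M i j k) : j ≠ k := H.symm.ik

theorem card (H : HbL T v M i j k) : (T M).ncard = 4 := by
  obtain ⟨c, d, hd⟩ := H.dp; exact hd.card

theorem iv (H : HbL T v M i j k) : i ∈ T v := by rw [H.pal]; simp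

theorem jv (H : HbL T v M i j k) : j ∈ T v := by rw [H.pal]; simp

theorem kv (H : HbL T v M i j k) : k ∈ T v := by rw [H.pal]; simp

end HbL

theorem Leg.symm {v M : ℂ} {i j : Fin 6} {o ℓ : ℝ} (L : Leg T E v M i j o ℓ) :
    Leg T E v M j i o ℓ := ⟨L.o1, L.pos, fun t h1 h2 => by rw [L.arc t h1 h2, pair_comm], L.fin⟩

theorem Leg.ev {v M : ℂ} {i j : Fin 6} {o ℓ : ℝ} (L : Leg T E v M i j o ℓ) :
    ∀ᶠ t : ℝ in 𝓝[>] 0, T (M + (v - M) * cis (o * t)) = {i, j} := by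
  filter_upwards [self_mem_nhdsWithin, mem_nhdsWithin_of_mem_nhds (Iio_mem_nhds L.pos)] with t h1 h2
  exact L.arc t h1 h2

/-- the data of the wedge lemma -/
theorem wd_of_hub (h : Irr U T) {v M1 M2 M3 : ℂ} {i j k : Fin 6} (h1 : HbL T v M1 i j k)
    (h2 : HbL T v M2 j k i) (h3 : HbL T v M3 k i j) :
    ∃ s1 s2 s3 : ℝ, Wd U T v M1 M2 M3 i j k s1 s2 s3 := by
  obtain ⟨c1, d1, g1⟩ := h1.dp
  obtain ⟨c2, d2, g2⟩ := h2.dp
  obtain ⟨c3, d3, g3⟩ := h3.dp
  refine wd_of_hubs h (by rw [h1.pal]) g1 g2 g3 h1.dst h2.dst h3.dst ?_ ?_ ?_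
  · rintro rfl; exact h1.out h2.j_mem
  · rintro rfl; exact h2.out h3.j_mem
  · rintro rfl; exact h3.out h1.j_mem

theorem triple_rot {i j k : Fin 6} : ({i, j, k} : Set (Fin 6)) = {j, k, i} := by
  ext m; simp only [mem_insert_iff, mem_singleton_iff]; tauto

theorem triple_swap {i j k : Fin 6} : ({i, j, k} : Set (Fin 6)) = {j, i, k} := by
  ext m; simp only [mem_insert_iff, mem_singleton_iff]; tauto

/-- a set of three colours with two given elements -/
theorem triple_of {S : Set (Fin 6)} (hS : S.ncard = 3) {i j : Fin 6} (hi : i ∈ S) (hj : j ∈ S)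
    (hij : i ≠ j) : ∃ k, S = {i, j, k} ∧ k ≠ i ∧ k ≠ j := by
  have hsub : ({i, j} : Set (Fin 6)) ⊆ S := by
    rintro m (rfl | hm)
    · exact hi
    · rw [mem_singleton_iff] at hm; subst hm; exact hj
  have h1 := Set.ncard_sdiff hsub (Set.toFinite _)
  rw [Set.ncard_pair hij, hS] at h1
  obtain ⟨k, hk⟩ := Set.ncard_eq_one.1 h1
  have hk' : k ∈ S \ {i, j} := by rw [hk]; rfl
  refine ⟨k, ?_, fun h => hk'.2 (Or.inl h), fun h => hk'.2 (Or.inr h)⟩
  ext m
  constructor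
  · intro hm
    by_cases hm' : m ∈ ({i, j} : Set (Fin 6))
    · rcases hm' with h2 | h2
      · exact Or.inl h2
      · exact Or.inr (Or.inl h2)
    · have : m ∈ S \ {i, j} := ⟨hm, hm'⟩
      rw [hk] at this
      exact Or.inr (Or.inr this)
  · rintro (rfl | rfl | hm)
    · exact hi
    · exact hj
    · rw [mem_singleton_iff] at hm; subst hm; exact hk'.1

namespace Wld

/-- the three hubs -/
theorem three (W : Wld T E) {v : ℂ} (hv : v ∈ E) {i j k : Fin 6} (hT : T v = {i, j, k}) :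
    ∃ M1 M2 M3, HbL T v M1 i j k ∧ HbL T v M2 j k i ∧ HbL T v M3 k i j := by
  obtain ⟨M1, h1⟩ := W.hub v hv i j k hT
  obtain ⟨M2, h2⟩ := W.hub v hv j k i (by rw [hT, triple_rot])
  obtain ⟨M3, h3⟩ := W.hub v hv k i j (by rw [hT, triple_rot, triple_rot])
  exact ⟨M1, M2, M3, h1, h2, h3⟩

/-- **a point of `S(v)` with two colours of `v` is a hub of `v`** -/
theorem factA (W : Wld T E) (h : Irr U T) {v B : ℂ} (hv : v ∈ E) (hd : dist v B = 1) {i j : Fin 6}
    (hij : i ≠ j) (hi : i ∈ T v) (hj : j ∈ T v) (hi' : i ∈ Pal U B) (hj' : j ∈ Pal U B) :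
    ∃ i' j' k', HbL T v B i' j' k' := by
  obtain ⟨k, hk, -, -⟩ := triple_of (W.card v hv) hi hj hij
  obtain ⟨M1, M2, M3, h1, h2, h3⟩ := W.three hv hk
  obtain ⟨s1, s2, s3, Wd⟩ := wd_of_hub h h1 h2 h3
  rcases Wd.factA h hd hi' hj' with rfl | rfl | rfl
  · exact ⟨_, _, _, h1⟩
  · exact ⟨_, _, _, h2⟩
  · exact ⟨_, _, _, h3⟩

theorem unique (W : Wld T E) (h : Irr U T) {v M M' : ℂ} (hv : v ∈ E) {i j k : Fin 6}
    (h1 : HbL T v M i j k) (h2 : HbL T v M' i j k) : M' = M := by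
  obtain ⟨-, M2, M3, -, g2, g3⟩ := W.three hv h1.pal
  obtain ⟨s1, s2, s3, Wd⟩ := wd_of_hub h h1 g2 g3
  rcases Wd.factA h h2.dst (h.sub _ h2.i_mem) (h.sub _ h2.j_mem) with rfl | rfl | rfl
  · rfl
  · exact absurd g2.j_mem h2.out
  · exact absurd g3.i_mem h2.out

/-- the hubs of a full end -/
def Hs (T : ℂ → Set (Fin 6)) (v : ℂ) : Set ℂ := {M | ∃ i j k, HbL T v M i j k}

theorem hs_finite (W : Wld T E) (h : Irr U T) {v : ℂ} (hv : v ∈ E) : (Hs T v).Finite := by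
  have e : Hs T v = ⋃ i, ⋃ j, ⋃ k, {M | HbL T v M i j k} := by
    ext M; simp [Hs]
  rw [e]
  refine Set.finite_iUnion fun i => Set.finite_iUnion fun j => Set.finite_iUnion fun k => ?_
  refine Set.Subsingleton.finite fun M hM M' hM' => ?_
  exact W.unique h hv hM' hM

end Wld

end Vale.Agent.P032.Six
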