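import Vale.Agent.P032.R2.H171.LF1

/-!
# P032: barriers

`Nr U T E p c`: the context near a point `p`.  `Nr.key`: at a full end `v` near `p` with a barrier hub
`B` there is a long exact arc starting at a full end near `p`, on a given side of the circle about `B`,
whose centre is far from `B`, and which does not cross the circles about the other barriers.
-/

open Set Filter Topology Metric

noncomputable section

namespace Vale.Agent.P032.Six

variable {U : Fin 6 → Set ℂ} {T : ℂ → Set (Fin 6)} {E : Set ℂ}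

theorem norm_cis_sub_one171 (s : ℝ) : ‖cis s - 1‖ ≤ |s| := by
  have := Real.norm_exp_I_mul_ofReal_sub_one_le (x := s)
  unfold cis
  rwa [mul_comm, Real.norm_eq_abs] at this

theorem dist_leg_le {v M : ℂ} (hd : dist v M = 1) (s : ℝ) :
    dist (M + (v - M) * cis s) v ≤ |s| := by
  have e : M + (v - M) * cis s - v = (v - M) * (cis s - 1) := by ring
  rw [dist_eq_norm, e, norm_mul, ← dist_eq_norm, hd, one_mul]
  exact norm_cis_sub_one171 s

theorem abs_sgn_mul {o t : ℝ} (ho : o = 1 ∨ o = -1) (ht : 0 ≤ t) : |o * t| = t := by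
  rcases ho with rfl | rfl
  · rw [one_mul, abs_of_nonneg ht]
  · rw [neg_one_mul, abs_neg, abs_of_nonneg ht]

theorem Leg.dist_le {v M : ℂ} {i j : Fin 6} {o ℓ : ℝ} (L : Leg T E v M i j o ℓ)
    (hd : dist v M = 1) : dist (M + (v - M) * cis (o * ℓ)) v ≤ ℓ := by
  have := dist_leg_le hd (o * ℓ)
  rwa [abs_sgn_mul L.o1 L.pos.le] at this

theorem Leg.mem_i {v M : ℂ} {i j : Fin 6} {o ℓ : ℝ} (L : Leg T E v M i j o ℓ) (h : Irr U T) :
    ∀ t ∈ Icc 0 ℓ, i ∈ T (M + (v - M) * cis (o * t)) := by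
  have hc : Continuous fun t : ℝ => M + (v - M) * cis (o * t) :=
    continuous_const.add (continuous_const.mul (continuous_cis.comp
      (continuous_const.mul continuous_id)))
  have h1 : IsClosed {t : ℝ | i ∈ T (M + (v - M) * cis (o * t))} := (h.closed i).preimage hc
  have h2 : Ioo 0 ℓ ⊆ {t : ℝ | i ∈ T (M + (v - M) * cis (o * t))} := by
    intro t ht
    show i ∈ T (M + (v - M) * cis (o * t))
    rw [L.arc t ht.1 ht.2]
    exact Or.inl rfl
  have h3 := h1.closure_subset_iff.2 h2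
  rw [closure_Ioo L.pos.ne] at h3
  exact h3

theorem Leg.mem_j {v M : ℂ} {i j : Fin 6} {o ℓ : ℝ} (L : Leg T E v M i j o ℓ) (h : Irr U T) :
    ∀ t ∈ Icc 0 ℓ, j ∈ T (M + (v - M) * cis (o * t)) := L.symm.mem_i h

/-- the context near a point `p` -/
structure Nr (U : Fin 6 → Set ℂ) (T : ℂ → Set (Fin 6)) (E : Set ℂ) (p : ℂ) (c : ℝ) : Prop where
  h : Irr U T
  W : Wld T E
  h4 : ∀ x, (T x).ncard ≤ 4
  c0 : 0 < c
  c1 : c ≤ 1 / 4
  nhd : ∀ x, dist x p < 4 * c → T x ⊆ T p
  sep1 : ∀ x y, dist x p ≤ 4 → dist y p ≤ 4 → 4 < (T x ∪ T y).ncard → c ≤ dist x y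
  sep2 : ∀ x y, dist x p ≤ 4 → dist y p ≤ 4 → ∀ a b m n, DPt T x a b m n → DPt T y a m b n →
    c ≤ dist x y

theorem exists_nr (h : Irr U T) (W : Wld T E) (h4 : ∀ x, (T x).ncard ≤ 4) (p : ℂ) :
    ∃ c, Nr U T E p c := by
  obtain ⟨r, hr, hball⟩ := Metric.eventually_nhds_iff.1 (h.nhd p)
  obtain ⟨c1, hc1, k1⟩ := h.separation (isCompact_closedBall p 4) fun x _ => h4 x
  obtain ⟨c2, hc2, k2⟩ := h.sep2 h4 (isCompact_closedBall p 4)
  have m1 : min (r / 4) (min (min c1 c2) (1 / 4)) ≤ r / 4 := min_le_left _ _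
  have m2 : min (r / 4) (min (min c1 c2) (1 / 4)) ≤ c1 :=
    (min_le_right _ _).trans ((min_le_left _ _).trans (min_le_left _ _))
  have m3 : min (r / 4) (min (min c1 c2) (1 / 4)) ≤ c2 :=
    (min_le_right _ _).trans ((min_le_left _ _).trans (min_le_right _ _))
  have m4 : min (r / 4) (min (min c1 c2) (1 / 4)) ≤ 1 / 4 :=
    (min_le_right _ _).trans (min_le_right _ _)
  refine ⟨min (r / 4) (min (min c1 c2) (1 / 4)), h, W, h4, by positivity, m4, ?_, ?_, ?_⟩
  · intro x hx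
    exact hball (by linarith)
  · intro x y hx hy h5
    exact m2.trans (k1 x hx y hy h5)
  · intro x y hx hy a b m n h5 h6
    exact m3.trans (k2 x hx y hy a b m n h5 h6)

namespace Nr

variable {p : ℂ} {c : ℝ}

/-- different palettes of four colours: the points are far from each other -/
theorem far (N : Nr U T E p c) {x y : ℂ} (hx : dist x p ≤ 4) (hy : dist y p ≤ 4)
    (hx4 : (T x).ncard = 4) (hy4 : (T y).ncard = 4) {m : Fin 6} (hm : m ∈ T x) (hm' : m ∉ T y) :
    c ≤ dist x y := by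
  refine N.sep1 x y hx hy ?_
  have h1 : insert m (T y) ⊆ T x ∪ T y := by
    rintro i (rfl | hi)
    · exact Or.inl hm
    · exact Or.inr hi
  have h2 := Set.ncard_le_ncard h1 (Set.toFinite _)
  rw [Set.ncard_insert_of_notMem hm' (Set.toFinite _), hy4] at h2
  omega

/-- the other end of a short leg has another palette -/
theorem short_ne (N : Nr U T E p c) {v M : ℂ} {i j k : Fin 6} {o ℓ : ℝ} (hv : v ∈ E)
    (hvp : dist v p ≤ 2 * c) (H : HbL T v M i j k) (L : Leg T E v M i j o ℓ) (hℓ : ℓ < c) :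
    T (M + (v - M) * cis (o * ℓ)) ≠ T v := by
  intro heq
  obtain ⟨w, w', h1, h2, h3⟩ := N.W.shift v hv M i j k o ℓ H L heq
  have h5 : dist w w' ≤ ℓ := by
    rw [dist_comm, dist_eq_norm, h1, ← dist_eq_norm]
    exact L.dist_le H.dst
  have c1 := N.c1
  have h6 : dist w p ≤ 4 := (dist_triangle w v p).trans (by linarith)
  have h7 : dist w' p ≤ 4 := by
    have := dist_triangle w' w v
    have := dist_triangle w' v p
    have := dist_comm w w'
    linarith
  have h8 := N.sep1 w w' h6 h7 (by omega)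
  linarith

/-- the other end of a short leg -/
theorem other (N : Nr U T E p c) {v M : ℂ} {i j k : Fin 6} {o ℓ : ℝ} (hv : v ∈ E)
    (hvp : dist v p ≤ 2 * c) (H : HbL T v M i j k) (L : Leg T E v M i j o ℓ) (hℓ : ℓ < c) :
    ∃ x, HbL T (M + (v - M) * cis (o * ℓ)) M i j x ∧ x ≠ k ∧ x ∈ T p := by
  have hi := L.mem_i N.h ℓ ⟨L.pos.le, le_rfl⟩
  have hj := L.mem_j N.h ℓ ⟨L.pos.le, le_rfl⟩
  have hd : dist (M + (v - M) * cis (o * ℓ)) M = 1 := dist_arc H.dst _
  obtain ⟨x, hx, hxi, hxj⟩ := triple_of (N.W.card _ L.fin) hi hj H.ij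
  have hsub : T (M + (v - M) * cis (o * ℓ)) ⊆ T p := by
    apply N.nhd
    have h1 := L.dist_le H.dst
    have h2 := dist_triangle (M + (v - M) * cis (o * ℓ)) v p
    have := N.c0
    linarith
  have hout : x ∉ T M := by
    intro hxM
    obtain ⟨i', j', k', H'⟩ := N.W.factA N.h L.fin hd H.ij hi hj (N.h.sub _ H.i_mem)
      (N.h.sub _ H.j_mem)
    have h3 := H'.kv
    rw [hx] at h3
    rcases h3 with h3 | h3 | h3
    · exact H'.out (h3 ▸ H.i_mem)
    · exact H'.out (h3 ▸ H.j_mem)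
    · rw [mem_singleton_iff] at h3
      exact H'.out (h3 ▸ hxM)
  refine ⟨x, ⟨hx, hout, hd, H.dp⟩, ?_, hsub (by rw [hx]; simp)⟩
  rintro rfl
  exact N.short_ne hv hvp H L hℓ (by rw [hx, H.pal])

/-- a leg of a barrier is long -/
theorem long (N : Nr U T E p c) {v M : ℂ} {i j k : Fin 6} {o ℓ : ℝ} (hv : v ∈ E)
    (hvp : dist v p ≤ 2 * c) (H : HbL T v M i j k) (L : Leg T E v M i j o ℓ)
    (hb : ∀ x ∈ T p, x ≠ k → x ∈ T M) : c ≤ ℓ := by
  by_contra hcon
  push Not at hcon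
  obtain ⟨x, hx, hxk, hxp⟩ := N.other hv hvp H L hcon
  exact hx.out (hb x hxp hxk)

/-- a leg does not cross the circle about a point with a colour of its pair -/
theorem prop (h : Irr U T) {v O B : ℂ} {i j k : Fin 6} {o ℓ s : ℝ} (H : HbL T v O i j k)
    (L : Leg T E v O i j o ℓ) (hOB : O ≠ B) (hi : i ∈ T B) {t0 : ℝ} (h0 : t0 ∈ Icc 0 ℓ)
    (hneg : s * (dist (O + (v - O) * cis (o * t0)) B - 1) < 0) :
    ∀ t ∈ Icc 0 ℓ, s * (dist (O + (v - O) * cis (o * t)) B - 1) ≤ 0 :=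
  h.leg_side H.dst hOB (fun t h1 h2 => (L.arc t h1 h2).subset) (h.sub _ hi) (h.sub _ H.j_mem) h0
    hneg

theorem leg_zero (O v : ℂ) (o : ℝ) : O + (v - O) * cis (o * 0) = v := by
  rw [mul_zero, cis_zero171]; ring

/-- **KEY LEMMA** -/
theorem key (N : Nr U T E p c) {v B : ℂ} {a b e : Fin 6} {s : ℝ} (hv : v ∈ E)
    (hvp : dist v p ≤ c) (H : HbL T v B a b e) (hb : ∀ x ∈ T p, x ≠ e → x ∈ T B)
    (hs : s = 1 ∨ s = -1) (ho : Os U B s v a b) :
    ∃ H' q o', (o' = 1 ∨ o' = -1) ∧ dist q H' = 1 ∧ dist q p ≤ 2 * c ∧ c ≤ dist H' B ∧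
      (∀ t ∈ Icc 0 c, s * (dist (H' + (q - H') * cis (o' * t)) B - 1) ≤ 0) ∧
      ∃ F : Set ℂ, F.Finite ∧ ∀ B', B' ∉ F → (∀ x ∈ T p, x ≠ e → x ∈ T B') → ∀ σ : ℝ,
        (σ = 1 ∨ σ = -1) → 0 ≤ σ * (dist v B' - 1) →
        ∀ t ∈ Icc 0 c, 0 ≤ σ * (dist (H' + (q - H') * cis (o' * t)) B' - 1) := by
  have h := N.h
  have hc0 := N.c0
  have hc1 := N.c1
  have hvp2 : dist v p ≤ 2 * c := by linarith
  have hTv : T v ⊆ T p := N.nhd v (by linarith)
  obtain ⟨-, M2, O, -, H2, HO⟩ := N.W.three hv H.pal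
  obtain ⟨s1, s2, s3, Wd0⟩ := wd_of_hub h H H2 HO
  have Wd1 : Wd U T v B M2 O a b e s s2 s3 := { Wd0 with o1 := ho, q1 := hs }
  obtain ⟨o, ℓ, L⟩ := N.W.leg v hv O e a b HO
  have hOB : O ≠ B := by
    rintro rfl; exact H.out HO.i_mem
  have hBp : dist B p ≤ 4 := by
    have := dist_triangle B v p
    rw [dist_comm B v, H.dst] at this
    linarith
  have hOp : dist O p ≤ 4 := by
    have := dist_triangle O v p
    rw [dist_comm O v, HO.dst] at this
    linarith
  -- the first leg and `B`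
  have A1 : ∀ t ∈ Icc 0 ℓ, s * (dist (O + (v - O) * cis (o * t)) B - 1) ≤ 0 := by
    have k1 : ∀ᶠ t : ℝ in 𝓝[>] 0, t ∈ Ioi (0 : ℝ) := self_mem_nhdsWithin
    have k2 : ∀ᶠ t : ℝ in 𝓝[>] 0, t ∈ Iio ℓ := mem_nhdsWithin_of_mem_nhds (Iio_mem_nhds L.pos)
    obtain ⟨t, h1, h2, h3⟩ := ((Wd1.side3 h H.ij L.o1 L.ev).and (k1.and k2)).exists
    exact prop h HO.symm L.symm hOB H.i_mem ⟨le_of_lt h2, le_of_lt h3⟩ h1
  -- the first leg and other barriers
  have A2 : ∀ B', B' ∉ Wld.Hs T v → (∀ x ∈ T p, x ≠ e → x ∈ T B') → ∀ σ : ℝ,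
      (σ = 1 ∨ σ = -1) → 0 ≤ σ * (dist v B' - 1) →
      ∀ t ∈ Icc 0 ℓ, 0 ≤ σ * (dist (O + (v - O) * cis (o * t)) B' - 1) := by
    intro B' hB' hb' σ hσ h0 t ht
    have haB : a ∈ T B' := hb' a (hTv H.iv) H.ik
    have hbB : b ∈ T B' := hb' b (hTv H.jv) H.jk
    have hne : dist v B' ≠ 1 := by
      intro h1
      obtain ⟨i', j', k', H'⟩ := N.W.factA h hv h1 H.ij H.iv H.jv (h.sub _ haB) (h.sub _ hbB)
      exact hB' ⟨i', j', k', H'⟩
    have hσ0 : σ ≠ 0 := by rcases hσ with h1 | h1 <;> rw [h1] <;> norm_num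
    have hlt : (-σ) * (dist (O + (v - O) * cis (o * 0)) B' - 1) < 0 := by
      rw [leg_zero]
      have h1 : σ * (dist v B' - 1) ≠ 0 := mul_ne_zero hσ0 (sub_ne_zero.2 hne)
      have h2 := lt_of_le_of_ne h0 (Ne.symm h1)
      linarith
    have hOB' : O ≠ B' := by
      rintro rfl; exact hB' ⟨_, _, _, HO⟩
    have := prop h HO.symm L.symm hOB' haB ⟨le_rfl, L.pos.le⟩ hlt t ht
    linarith
  by_cases hℓ : c ≤ ℓ
  · refine ⟨O, v, o, L.o1, HO.dst, hvp2, ?_, fun t ht => A1 t ⟨ht.1, ht.2.trans hℓ⟩, Wld.Hs T v,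
      N.W.hs_finite h hv, fun B' h1 h2 σ h3 h4' t ht => A2 B' h1 h2 σ h3 h4' t
        ⟨ht.1, ht.2.trans hℓ⟩⟩
    exact N.far hOp hBp HO.card H.card HO.i_mem H.out
  · push Not at hℓ
    obtain ⟨x, HO', hxb, hxp⟩ := N.other hv hvp2 HO L hℓ
    set v' := O + (v - O) * cis (o * ℓ) with hv'
    have hv'E : v' ∈ E := L.fin
    have hv'p : dist v' p ≤ 2 * c := by
      have h1 := L.dist_le HO.dst
      have h2 := dist_triangle v' v p
      linarith
    have hxB : x ∈ T B := hb x hxp HO'.ik.symm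
    have hax : a ≠ x := HO'.jk
    have hex : e ≠ x := HO'.ik
    obtain ⟨Q, hQ, hcov⟩ := N.W.rhomb v' hv'E O e a x HO'
    have hbQ : b ∈ T Q := (hcov b).resolve_left HO.out
    -- the hub `Q` of `v'`
    obtain ⟨y, z, HQ, hyz⟩ : ∃ y z, HbL T v' Q x y z ∧ ((y = e ∧ z = a) ∨ (y = a ∧ z = e)) := by
      rcases hQ with hQ | hQ
      · exact ⟨e, a, hQ.symm, Or.inl ⟨rfl, rfl⟩⟩
      · exact ⟨a, e, hQ.symm, Or.inr ⟨rfl, rfl⟩⟩
    have hxQ : x ∈ T Q := HQ.i_mem
    -- the palette of `p`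
    have hpal : ∀ m ∈ T p, m = a ∨ m = b ∨ m = e ∨ m = x := by
      have hsub : ({a, b, e, x} : Set (Fin 6)) ⊆ T p := by
        rintro m (rfl | rfl | rfl | hm)
        · exact hTv H.iv
        · exact hTv H.jv
        · exact hTv H.kv
        · rw [mem_singleton_iff] at hm; subst hm; exact hxp
      have hcard : ({a, b, e, x} : Set (Fin 6)).ncard = 4 := by
        rw [Set.ncard_insert_of_notMem (by simp [H.ij, H.ik, hax]),
          Set.ncard_insert_of_notMem (by simp [H.jk, hxb.symm]), Set.ncard_pair hex]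
      have heq := Set.eq_of_subset_of_ncard_le hsub (by rw [hcard]; exact N.h4 p) (Set.toFinite _)
      intro m hm
      rw [← heq] at hm
      simpa using hm
    have hQb : ∀ m ∈ T p, m ≠ z → m ∈ T Q := by
      intro m hm hmz
      rcases hpal m hm with rfl | rfl | rfl | rfl
      · rcases hyz with ⟨-, h2⟩ | ⟨h1, -⟩
        · exact absurd h2.symm hmz
        · exact h1 ▸ HQ.j_mem
      · exact hbQ
      · rcases hyz with ⟨h1, -⟩ | ⟨-, h2⟩
        · exact h1 ▸ HQ.j_mem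
        · exact absurd h2.symm hmz
      · exact hxQ
    obtain ⟨o', ℓ', L'⟩ := N.W.leg v' hv'E Q x y z HQ
    have hℓ' : c ≤ ℓ' := N.long hv'E hv'p HQ L' hQb
    have hQp : dist Q p ≤ 4 := by
      have := dist_triangle Q v' p
      rw [dist_comm Q v', HQ.dst] at this
      linarith
    -- `Q` is far from `B`
    have hfar : c ≤ dist Q B := by
      rcases hyz with ⟨h1, h2⟩ | ⟨h1, h2⟩
      · exact N.far hQp hBp HQ.card H.card (by rw [← h1]; exact HQ.j_mem) H.out
      · subst h1; subst h2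
        by_cases hall : ∀ m ∈ T Q, m ∈ T B
        · obtain ⟨m1, m2, dQ⟩ := HQ.dp
          obtain ⟨n1, n2, dB⟩ := H.dp
          -- `dQ : x y | m1 m2`, `dB : y b | n1 n2`
          obtain ⟨m, dQ'⟩ : ∃ m, DPt T Q x y b m := by
            have h5 := hbQ
            rw [dQ.pal] at h5
            rcases h5 with h5 | h5 | h5 | h5
            · exact absurd h5 hxb.symm
            · exact absurd h5 H.ij.symm
            · subst h5; exact ⟨m2, dQ⟩
            · rw [mem_singleton_iff] at h5; subst h5; exact ⟨m1, dQ.swap34⟩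
          obtain ⟨n, dB'⟩ : ∃ n, DPt T B y b x n := by
            have h5 := hxB
            rw [dB.pal] at h5
            rcases h5 with h5 | h5 | h5 | h5
            · exact absurd h5 hax.symm
            · exact absurd h5 hxb
            · subst h5; exact ⟨n2, dB⟩
            · rw [mem_singleton_iff] at h5; subst h5; exact ⟨n1, dB.swap34⟩
          have hmn : m = n := by
            have h5 : m ∈ T B := hall m (by rw [dQ'.pal]; simp)
            rw [dB'.pal] at h5
            rcases h5 with h5 | h5 | h5 | h5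
            · exact absurd h5.symm dQ'.bd
            · exact absurd h5.symm dQ'.cd
            · exact absurd h5.symm dQ'.ad
            · exact h5
          subst hmn
          rw [dist_comm]
          exact N.sep2 B Q hBp hQp y b x m dB' dQ'.swap12
        · push Not at hall
          obtain ⟨m, hm, hm'⟩ := hall
          exact N.far hQp hBp HQ.card H.card hm hm'
    have hQB : Q ≠ B := by
      rintro rfl
      rw [dist_self] at hfar
      linarith
    -- `B` is not at distance one of `v'`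
    have hne : dist v' B ≠ 1 := by
      intro h1
      obtain ⟨i', j', k', H'⟩ := N.W.factA h hv'E h1 hax HO'.jv HO'.kv (h.sub _ H.i_mem)
        (h.sub _ hxB)
      -- the pair of `B` at `v'` is `{a, x}`
      obtain ⟨c', d', dB⟩ := H.dp
      obtain ⟨c'', d'', dB'⟩ := H'.dp
      have hk : k' = e := by
        have h2 := H'.kv
        rw [HO'.pal] at h2
        rcases h2 with h2 | h2 | h2
        · exact h2
        · exact absurd (h2 ▸ H.i_mem) H'.out
        · rw [mem_singleton_iff] at h2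
          exact absurd (h2 ▸ hxB) H'.out
      subst hk
      obtain ⟨r, hr⟩ := dB'.arc1
      have h3 : ({i', j'} : Set (Fin 6)) = {a, b} ∨ ({i', j'} : Set (Fin 6)) = {c', d'} := by
        have h4' := h.twoPairs dB r hr.1 (by rw [hr.mem]; exact hr.2) (by
          rw [hr.mem, dB'.pal]; intro m hm; rcases hm with rfl | hm
          · simp
          · rw [mem_singleton_iff] at hm; subst hm; simp)
        rwa [hr.mem] at h4'
      have ha : a ∈ ({i', j'} : Set (Fin 6)) := by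
        have h2 : a ∈ T v' := HO'.jv
        rw [H'.pal] at h2
        rcases h2 with h2 | h2 | h2
        · exact Or.inl h2
        · exact Or.inr h2
        · exact absurd h2 H.ik
      have hx : x ∈ ({i', j'} : Set (Fin 6)) := by
        have h2 : x ∈ T v' := HO'.kv
        rw [H'.pal] at h2
        rcases h2 with h2 | h2 | h2
        · exact Or.inl h2
        · exact Or.inr h2
        · exact absurd h2 hex.symm
      rcases h3 with h3 | h3
      · rw [h3] at hx
        rcases hx with hx | hx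
        · exact hax hx.symm
        · exact hxb hx
      · rw [h3] at ha
        rcases ha with ha | ha
        · exact dB.ac ha
        · exact dB.ad ha
    have hs0 : s ≠ 0 := by rcases hs with h1 | h1 <;> rw [h1] <;> norm_num
    have hend : s * (dist (Q + (v' - Q) * cis (o' * 0)) B - 1) < 0 := by
      rw [leg_zero]
      exact lt_of_le_of_ne (A1 ℓ ⟨L.pos.le, le_rfl⟩) (mul_ne_zero hs0 (sub_ne_zero.2 hne))
    refine ⟨Q, v', o', L'.o1, HQ.dst, hv'p, hfar, fun t ht =>
      prop h HQ L' hQB hxB ⟨le_rfl, L'.pos.le⟩ hend t ⟨ht.1, ht.2.trans hℓ'⟩,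
      Wld.Hs T v ∪ Wld.Hs T v', (N.W.hs_finite h hv).union (N.W.hs_finite h hv'E),
      fun B' h1 h2 σ hσ h3 t ht => ?_⟩
    have h1a : B' ∉ Wld.Hs T v := fun h5 => h1 (Or.inl h5)
    have h1b : B' ∉ Wld.Hs T v' := fun h5 => h1 (Or.inr h5)
    have hxB' : x ∈ T B' := h2 x hxp hex.symm
    have haB' : a ∈ T B' := h2 a (hTv H.iv) H.ik
    have hne' : dist v' B' ≠ 1 := by
      intro h5
      obtain ⟨i', j', k', H'⟩ := N.W.factA h hv'E h5 hax HO'.jv HO'.kv (h.sub _ haB')
        (h.sub _ hxB')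
      exact h1b ⟨i', j', k', H'⟩
    have hσ0 : σ ≠ 0 := by rcases hσ with h5 | h5 <;> rw [h5] <;> norm_num
    have h6 : 0 ≤ σ * (dist v' B' - 1) := A2 B' h1a h2 σ hσ h3 ℓ ⟨L.pos.le, le_rfl⟩
    have hlt : (-σ) * (dist (Q + (v' - Q) * cis (o' * 0)) B' - 1) < 0 := by
      rw [leg_zero]
      have h7 : σ * (dist v' B' - 1) ≠ 0 := mul_ne_zero hσ0 (sub_ne_zero.2 hne')
      have h8 := lt_of_le_of_ne h6 (Ne.symm h7)
      linarith
    have hQB' : Q ≠ B' := by
      rintro rfl; exact h1b ⟨_, _, _, HQ⟩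
    have := prop h HQ L' hQB' hxB' ⟨le_rfl, L'.pos.le⟩ hlt t ⟨ht.1, ht.2.trans hℓ'⟩
    linarith

end Nr

end Vale.Agent.P032.Six
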