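import Vale.Agent.P032.R2.H171.LF2

/-!
# P032: full ends are locally finite

`Wld.lf`: in a world of full ends with at most four colours the full ends do not accumulate.
-/

open Set Filter Topology Metric

noncomputable section

namespace Vale.Agent.P032.Six

variable {U : Fin 6 → Set ℂ} {T : ℂ → Set (Fin 6)} {E : Set ℂ}

theorem ult_exists {α ι : Type*} [Finite ι] (𝒰 : Ultrafilter α) {P : ι → α → Prop}
    (h : ∀ᶠ x in (𝒰 : Filter α), ∃ i, P i x) : ∃ i, ∀ᶠ x in (𝒰 : Filter α), P i x := by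
  by_contra hcon
  have h1 : ∀ i, ∀ᶠ x in (𝒰 : Filter α), ¬ P i x := fun i =>
    Ultrafilter.eventually_not.2 fun h2 => hcon ⟨i, h2⟩
  obtain ⟨x, ⟨i, hi⟩, h2⟩ := (h.and (eventually_all.2 h1)).exists
  exact h2 i hi

theorem ult_sign {α : Type*} (𝒰 : Ultrafilter α) {P : ℝ → α → Prop}
    (h : ∀ᶠ x in (𝒰 : Filter α), ∃ s : ℝ, (s = 1 ∨ s = -1) ∧ P s x) :
    ∃ s : ℝ, (s = 1 ∨ s = -1) ∧ ∀ᶠ x in (𝒰 : Filter α), P s x := by
  obtain ⟨i, hi⟩ := ult_exists (ι := Bool) 𝒰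
    (P := fun i x => P (if i then 1 else -1) x) (h.mono fun x hx => by
      obtain ⟨s, h1 | h1, h2⟩ := hx
      · exact ⟨true, by rw [← h1]; simpa [h1] using h2⟩
      · exact ⟨false, by simpa [h1] using h2⟩)
  refine ⟨if i then 1 else -1, ?_, hi⟩
  cases i <;> simp

theorem ult_lim {α : Type*} (𝒰 : Ultrafilter α) (f : α → ℂ) {p : ℂ} {R : ℝ}
    (h : ∀ᶠ x in (𝒰 : Filter α), dist (f x) p ≤ R) : ∃ y, Tendsto f 𝒰 (𝓝 y) := by
  obtain ⟨y, -, hy⟩ := (isCompact_closedBall p R).ultrafilter_le_nhds' (𝒰.map f) h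
  exact ⟨y, hy⟩

theorem Os.neg {k : ℕ} {U : Fin k → Set ℂ} {M V : ℂ} {s : ℝ} {i j : Fin k} (h : Os U M s V i j) :
    Os U M (-s) V j i := by
  filter_upwards [h] with x hx
  exact ⟨fun h1 => hx.2 (by linarith), fun h1 => hx.1 (by linarith)⟩

/-- points of an arc of length at most one are different -/
theorem arc_inj {H q : ℂ} (hd : dist q H = 1) {o t t' : ℝ} (ho : o = 1 ∨ o = -1) (h1 : t' < t)
    (h2 : t - t' ≤ 1) : H + (q - H) * cis (o * t) ≠ H + (q - H) * cis (o * t') := by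
  intro h3
  have hne : q - H ≠ 0 := by
    intro h0
    rw [dist_eq_norm, h0, norm_zero] at hd
    exact zero_ne_one hd
  have h4 : cis (o * t) = cis (o * t') := mul_left_cancel₀ hne (add_left_cancel h3)
  have h5 : Real.cos (o * t) = Real.cos (o * t') := by rw [← cis_re, ← cis_re, h4]
  have h6 : Real.sin (o * t) = Real.sin (o * t') := by rw [← cis_im, ← cis_im, h4]
  have h7 : Real.sin (o * t - o * t') = 0 := by rw [Real.sin_sub, h5, h6]; ring
  have h8 : 0 < Real.sin (t - t') :=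
    Real.sin_pos_of_pos_of_lt_pi (by linarith) (by linarith [Real.pi_gt_three])
  rcases ho with rfl | rfl
  · rw [one_mul, one_mul] at h7
    linarith
  · rw [show -1 * t - -1 * t' = -(t - t') by ring, Real.sin_neg] at h7
    linarith

/-- two circles with an arc in common -/
theorem arc_common {H B q : ℂ} (hd : dist q H = 1) {o c : ℝ} (ho : o = 1 ∨ o = -1) (hc : 0 < c)
    (hc1 : c ≤ 1) (h : ∀ t ∈ Icc 0 c, dist (H + (q - H) * cis (o * t)) B = 1) : H = B := by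
  by_contra hne
  have a1 := arc_inj hd ho (t := c / 2) (t' := 0) (by linarith) (by linarith)
  have a2 := arc_inj hd ho (t := c) (t' := 0) (by linarith) (by linarith)
  have a3 := arc_inj hd ho (t := c) (t' := c / 2) (by linarith) (by linarith)
  have b1 := h 0 ⟨le_rfl, hc.le⟩
  have b2 := h (c / 2) ⟨by linarith, by linarith⟩
  have b3 := h c ⟨hc.le, le_rfl⟩
  rcases circle_two (dist_arc hd _) (dist_arc hd _) (dist_arc hd _) b1 b2 b3 hne a1.symm with h1 | h1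
  · exact a2 h1
  · exact a3 h1

namespace Nr

variable {p : ℂ} {c : ℝ}

/-- every full end near `p` has a barrier hub -/
theorem good (N : Nr U T E p c) {v : ℂ} (hv : v ∈ E) (hvp : dist v p ≤ c) :
    ∃ a b e, ∃ s : ℝ, (s = 1 ∨ s = -1) ∧ ∃ o : ℝ, (o = 1 ∨ o = -1) ∧ ∃ B, HbL T v B a b e ∧
      (∀ x ∈ T p, x ≠ e → x ∈ T B) ∧ Os U B s v a b ∧ ∃ ℓ, c ≤ ℓ ∧ Leg T E v B a b o ℓ := by
  have hc0 := N.c0
  have hTv : T v ⊆ T p := N.nhd v (by linarith)
  obtain ⟨i, j, k, -, -, -, hT⟩ := Set.ncard_eq_three.1 (N.W.card v hv)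
  obtain ⟨M1, M2, M3, H1, -, -⟩ := N.W.three hv hT
  have key : ∃ a b e B, HbL T v B a b e ∧ ∀ x ∈ T p, x ≠ e → x ∈ T B := by
    by_cases hall : ∀ x ∈ T p, x ≠ k → x ∈ T M1
    · exact ⟨i, j, k, M1, H1, hall⟩
    · push Not at hall
      obtain ⟨x, hxp, hxk, hxM⟩ := hall
      have hxi : i ≠ x := by rintro rfl; exact hxM H1.i_mem
      have hxj : j ≠ x := by rintro rfl; exact hxM H1.j_mem
      have hpal : ∀ m ∈ T p, m = i ∨ m = j ∨ m = k ∨ m = x := by
        have hsub : ({i, j, k, x} : Set (Fin 6)) ⊆ T p := by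
          rintro m (rfl | rfl | rfl | hm)
          · exact hTv H1.iv
          · exact hTv H1.jv
          · exact hTv H1.kv
          · rw [mem_singleton_iff] at hm; subst hm; exact hxp
        have hcard : ({i, j, k, x} : Set (Fin 6)).ncard = 4 := by
          rw [Set.ncard_insert_of_notMem (by simp [H1.ij, H1.ik, hxi]),
            Set.ncard_insert_of_notMem (by simp [H1.jk, hxj]), Set.ncard_pair hxk.symm]
        have heq := Set.eq_of_subset_of_ncard_le hsub (by rw [hcard]; exact N.h4 p) (Set.toFinite _)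
        intro m hm
        rw [← heq] at hm
        simpa using hm
      obtain ⟨Q, hQ, hcov⟩ := N.W.rhomb v hv M1 i j k H1
      have hxQ : x ∈ T Q := (hcov x).resolve_left hxM
      rcases hQ with hQ | hQ
      · refine ⟨i, k, j, Q, hQ, fun m hm hmj => ?_⟩
        rcases hpal m hm with rfl | rfl | rfl | rfl
        · exact hQ.i_mem
        · exact absurd rfl hmj
        · exact hQ.j_mem
        · exact hxQ
      · refine ⟨j, k, i, Q, hQ, fun m hm hmj => ?_⟩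
        rcases hpal m hm with rfl | rfl | rfl | rfl
        · exact absurd rfl hmj
        · exact hQ.i_mem
        · exact hQ.j_mem
        · exact hxQ
  obtain ⟨a, b, e, B, H, hb⟩ := key
  obtain ⟨-, M2', M3', -, H2, H3⟩ := N.W.three hv H.pal
  obtain ⟨s1, s2, s3, Wd⟩ := wd_of_hub N.h H H2 H3
  obtain ⟨o, ℓ, L⟩ := N.W.leg v hv B a b e H
  exact ⟨a, b, e, s1, Wd.q1, o, L.o1, B, H, hb, Wd.o1, ℓ, N.long hv (by linarith) H L hb, L⟩

/-- one hub cannot be the barrier of two full ends near `p` with the same orientation -/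
theorem own (_ : Nr U T E p c) {β v w : ℂ} {a b e : Fin 6} {o ℓ ℓ' t t' : ℝ} (W : Wld T E)
    (hv : v ∈ E) (hw : w ∈ E) (hpβ : dist p β = 1)
    (hvt : v = β + (p - β) * cis t) (hwt : w = β + (p - β) * cis t') (ht : |t| < c / 2)
    (ht' : |t'| < c / 2) (L : Leg T E v β a b o ℓ) (L' : Leg T E w β a b o ℓ') (hℓ : c ≤ ℓ)
    (hℓ' : c ≤ ℓ') (H : HbL T v β a b e) : v = w := by
  have key : ∀ {v w : ℂ} {ℓ t t' : ℝ}, w ∈ E → v = β + (p - β) * cis t →
      w = β + (p - β) * cis t' → Leg T E v β a b o ℓ → c ≤ ℓ → 0 < o * (t' - t) →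
      o * (t' - t) < c → False := by
    intro v w ℓ t t' hw hvt hwt L hℓ h1 h2
    have h3 := L.arc (o * (t' - t)) h1 (by linarith)
    have h4 : o * (o * (t' - t)) = t' - t := by
      rcases L.o1 with h5 | h5 <;> rw [h5] <;> ring
    have h5 : β + (v - β) * cis (o * (o * (t' - t))) = w := by
      rw [h4, hvt, hwt]
      have h6 : cis t' = cis t * cis (t' - t) := by
        unfold cis
        rw [← Complex.exp_add]
        congr 1
        push_cast
        ring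
      rw [h6]; ring
    rw [h5] at h3
    have h6 := W.card w hw
    rw [h3, Set.ncard_pair H.ij] at h6
    omega
  rw [abs_lt] at ht ht'
  rcases lt_trichotomy (o * (t' - t)) 0 with h1 | h1 | h1
  · exfalso
    refine key (v := w) (w := v) (t := t') (t' := t) hv hwt hvt L' hℓ' (by linarith) ?_
    rcases L.o1 with h5 | h5 <;> rw [h5] <;> linarith
  · have h2 : t' = t := by
      rcases L.o1 with h5 | h5 <;> rw [h5] at h1 <;> linarith
    rw [hvt, hwt, h2]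
  · exfalso
    refine key (v := v) (w := w) (t := t) (t' := t') hw hvt hwt L hℓ h1 ?_
    rcases L.o1 with h5 | h5 <;> rw [h5] <;> linarith

/-- **full ends do not accumulate at `p`** -/
theorem lf (N : Nr U T E p c) : ¬ ∃ᶠ v in 𝓝[≠] p, v ∈ E := by
  intro hfreq
  have h := N.h
  have hc0 := N.c0
  have hc1 := N.c1
  have hne := frequently_mem_iff_neBot.1 hfreq
  set 𝒰 : Ultrafilter ℂ := Ultrafilter.of (𝓝[≠] p ⊓ 𝓟 E) with h𝒰
  have hle : (𝒰 : Filter ℂ) ≤ 𝓝[≠] p ⊓ 𝓟 E := Ultrafilter.of_le _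
  have hE : ∀ᶠ v in (𝒰 : Filter ℂ), v ∈ E := (hle.trans inf_le_right) (mem_principal_self E)
  have hlp : Tendsto (fun v : ℂ => v) 𝒰 (𝓝 p) := hle.trans (inf_le_left.trans nhdsWithin_le_nhds)
  have hnp : ∀ᶠ v in (𝒰 : Filter ℂ), v ≠ p := (hle.trans inf_le_left) self_mem_nhdsWithin
  have hcp : ∀ᶠ v in (𝒰 : Filter ℂ), dist v p ≤ c := by
    filter_upwards [hlp.eventually (Metric.ball_mem_nhds p hc0)] with v hv
    exact le_of_lt hv
  -- fixed colours, signs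
  obtain ⟨a, ha⟩ := ult_exists 𝒰 ((hE.and hcp).mono fun v hv => N.good hv.1 hv.2)
  obtain ⟨b, hb⟩ := ult_exists 𝒰 ha
  obtain ⟨e, he⟩ := ult_exists 𝒰 hb
  obtain ⟨s, hs, hs'⟩ := ult_sign 𝒰 he
  obtain ⟨o, ho, hQ0⟩ := ult_sign 𝒰 hs'
  have hQ := (hE.and (hcp.and (hnp.and hQ0)))
  set Q : ℂ → Prop := fun v => v ∈ E ∧ dist v p ≤ c ∧ v ≠ p ∧ ∃ B, HbL T v B a b e ∧
      (∀ x ∈ T p, x ≠ e → x ∈ T B) ∧ Os U B s v a b ∧ ∃ ℓ, c ≤ ℓ ∧ Leg T E v B a b o ℓ with hQdef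
  have hQ : ∀ᶠ v in (𝒰 : Filter ℂ), Q v := hQ
  have hch : ∀ v, Q v → ∃ B, HbL T v B a b e ∧ (∀ x ∈ T p, x ≠ e → x ∈ T B) ∧ Os U B s v a b ∧
      ∃ ℓ, c ≤ ℓ ∧ Leg T E v B a b o ℓ := fun v hv => hv.2.2.2
  choose! B hB using hch
  have hBp : ∀ᶠ v in (𝒰 : Filter ℂ), dist (B v) p ≤ 2 := by
    filter_upwards [hQ] with v hv
    have h1 := dist_triangle (B v) v p
    rw [dist_comm (B v) v, (hB v hv).1.dst] at h1
    have := hv.2.1
    linarith
  obtain ⟨Bi, hBi⟩ := ult_lim 𝒰 B hBp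
  -- the barriers are different
  have hdif : ∀ β, ∀ᶠ v in (𝒰 : Filter ℂ), B v ≠ β := by
    intro β
    refine Ultrafilter.eventually_not.2 fun hcon => ?_
    have hcon : ∀ᶠ v in (𝒰 : Filter ℂ), B v = β := hcon
    have hpβ : dist p β = 1 := by
      have h1 : Tendsto (fun v : ℂ => dist v β) 𝒰 (𝓝 (dist p β)) :=
        hlp.dist tendsto_const_nhds
      have h2 : Tendsto (fun v : ℂ => dist v β) 𝒰 (𝓝 1) := by
        refine Tendsto.congr' ?_ tendsto_const_nhds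
        filter_upwards [hQ, hcon] with v hv hv'
        rw [← hv', (hB v hv).1.dst]
      exact tendsto_nhds_unique h1 h2
    have hall := hQ.and (hcon.and (hlp.eventually (near_circle hpβ (show 0 < c / 2 by linarith))))
    obtain ⟨v, hv, hvβ, hvt⟩ := hall.exists
    have hvne : ∀ᶠ w in (𝒰 : Filter ℂ), w ≠ v :=
      hlp.eventually (isOpen_ne.mem_nhds (Ne.symm hv.2.2.1))
    obtain ⟨w, ⟨hw, hwβ, hwt⟩, hwv⟩ := (hall.and hvne).exists
    obtain ⟨H, -, -, ℓ, hℓ, L⟩ := hB v hv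
    obtain ⟨H', -, -, ℓ', hℓ', L'⟩ := hB w hw
    rw [hvβ] at H L
    rw [hwβ] at H' L'
    obtain ⟨t, ht, hvt⟩ := hvt H.dst
    obtain ⟨t', ht', hwt⟩ := hwt H'.dst
    exact hwv (N.own N.W hv.1 hw.1 hpβ hvt hwt ht ht' L L' hℓ hℓ' H).symm
  -- the arcs
  have hmain : ∀ v, Q v → ∃ τ : ℝ, (τ = 1 ∨ τ = -1) ∧ ∃ o' : ℝ, (o' = 1 ∨ o' = -1) ∧
      ∃ H' q, dist q H' = 1 ∧ dist q p ≤ 2 * c ∧ c ≤ dist H' (B v) ∧
      ∀ t ∈ Icc 0 c, τ * (dist (H' + (q - H') * cis (o' * t)) (B v) - 1) ≤ 0 ∧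
        0 ≤ τ * (dist (H' + (q - H') * cis (o' * t)) Bi - 1) := by
    intro v hv
    obtain ⟨H, hb, hOs, -⟩ := hB v hv
    obtain ⟨τ, hτ, hτw⟩ := ult_sign 𝒰 (P := fun σ w => 0 ≤ σ * (dist v (B w) - 1))
      (Eventually.of_forall fun w => by
        rcases le_total 0 (dist v (B w) - 1) with h1 | h1
        · exact ⟨1, Or.inl rfl, by linarith⟩
        · exact ⟨-1, Or.inr rfl, by linarith⟩)
    obtain ⟨a', b', H', hOs'⟩ : ∃ a' b', HbL T v (B v) a' b' e ∧ Os U (B v) τ v a' b' := by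
      have hcase : τ = s ∨ τ = -s := by
        rcases hτ with rfl | rfl <;> rcases hs with rfl | rfl <;> norm_num
      rcases hcase with rfl | rfl
      · exact ⟨a, b, H, hOs⟩
      · exact ⟨b, a, H.symm, hOs.neg⟩
    obtain ⟨Hc, q, o', ho', k1, k2, k3, k4, F, hF, k5⟩ := N.key hv.1 hv.2.1 H' hb hτ hOs'
    refine ⟨τ, hτ, o', ho', Hc, q, k1, k2, k3, fun t ht => ⟨k4 t ht, ?_⟩⟩
    have hF' : ∀ᶠ w in (𝒰 : Filter ℂ), B w ∉ F := by
      have h1 : ∀ᶠ w in (𝒰 : Filter ℂ), ∀ β ∈ F, B w ≠ β :=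
        (eventually_all_finite hF).2 fun β _ => hdif β
      filter_upwards [h1] with w hw hwF
      exact hw _ hwF rfl
    have h2 : ∀ᶠ w in (𝒰 : Filter ℂ), 0 ≤ τ * (dist (Hc + (q - Hc) * cis (o' * t)) (B w) - 1) := by
      filter_upwards [hF', hτw, hQ] with w w1 w2 w3
      exact k5 (B w) w1 (hB w w3).2.1 τ hτ w2 t ht
    have h3 : Tendsto (fun w => τ * (dist (Hc + (q - Hc) * cis (o' * t)) (B w) - 1)) 𝒰
        (𝓝 (τ * (dist (Hc + (q - Hc) * cis (o' * t)) Bi - 1))) :=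
      tendsto_const_nhds.mul ((tendsto_const_nhds.dist hBi).sub tendsto_const_nhds)
    exact ge_of_tendsto h3 h2
  obtain ⟨τ, hτ, hm1⟩ := ult_sign 𝒰 (hQ.mono hmain)
  obtain ⟨o', ho', hm2⟩ := ult_sign 𝒰 hm1
  set R : ℂ → Prop := fun v => ∃ H' q, dist q H' = 1 ∧ dist q p ≤ 2 * c ∧ c ≤ dist H' (B v) ∧
      ∀ t ∈ Icc 0 c, τ * (dist (H' + (q - H') * cis (o' * t)) (B v) - 1) ≤ 0 ∧
        0 ≤ τ * (dist (H' + (q - H') * cis (o' * t)) Bi - 1) with hR
  have hm2 : ∀ᶠ v in (𝒰 : Filter ℂ), R v := hm2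
  have hch2 : ∀ v, R v → ∃ H' q, dist q H' = 1 ∧ dist q p ≤ 2 * c ∧ c ≤ dist H' (B v) ∧
      ∀ t ∈ Icc 0 c, τ * (dist (H' + (q - H') * cis (o' * t)) (B v) - 1) ≤ 0 ∧
        0 ≤ τ * (dist (H' + (q - H') * cis (o' * t)) Bi - 1) := fun v hv => hv
  choose! Hf qf hHq using hch2
  obtain ⟨qi, hqi⟩ := ult_lim 𝒰 qf (p := p) (R := 2 * c) (by
    filter_upwards [hm2] with v hv
    exact (hHq v hv).2.1)
  obtain ⟨Hi, hHi⟩ := ult_lim 𝒰 Hf (p := p) (R := 2) (by
    filter_upwards [hm2] with v hv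
    obtain ⟨g1, g2, -, -⟩ := hHq v hv
    have h1 := dist_triangle (Hf v) (qf v) p
    rw [dist_comm (Hf v) (qf v), g1] at h1
    linarith)
  have hqH : dist qi Hi = 1 := by
    refine tendsto_nhds_unique (hqi.dist hHi) ?_
    refine Tendsto.congr' ?_ tendsto_const_nhds
    filter_upwards [hm2] with v hv
    exact (hHq v hv).1.symm
  have hHB : c ≤ dist Hi Bi := by
    refine ge_of_tendsto (hHi.dist hBi) ?_
    filter_upwards [hm2] with v hv
    exact (hHq v hv).2.2.1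
  have harc : ∀ t ∈ Icc 0 c, dist (Hi + (qi - Hi) * cis (o' * t)) Bi = 1 := by
    intro t ht
    have hX : Tendsto (fun v => Hf v + (qf v - Hf v) * cis (o' * t)) 𝒰
        (𝓝 (Hi + (qi - Hi) * cis (o' * t))) :=
      hHi.add ((hqi.sub hHi).mul tendsto_const_nhds)
    have h1 : τ * (dist (Hi + (qi - Hi) * cis (o' * t)) Bi - 1) ≤ 0 := by
      refine le_of_tendsto (tendsto_const_nhds.mul ((hX.dist hBi).sub tendsto_const_nhds)) ?_
      filter_upwards [hm2] with v hv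
      exact ((hHq v hv).2.2.2 t ht).1
    have h2 : 0 ≤ τ * (dist (Hi + (qi - Hi) * cis (o' * t)) Bi - 1) := by
      refine ge_of_tendsto (tendsto_const_nhds.mul
        ((hX.dist tendsto_const_nhds).sub tendsto_const_nhds)) ?_
      filter_upwards [hm2] with v hv
      exact ((hHq v hv).2.2.2 t ht).2
    have hτ0 : τ ≠ 0 := by rcases hτ with h3 | h3 <;> rw [h3] <;> norm_num
    rcases mul_eq_zero.1 (le_antisymm h1 h2) with h3 | h3
    · exact absurd h3 hτ0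
    · linarith
  have := arc_common hqH ho' hc0 (by linarith) harc
  rw [this, dist_self] at hHB
  linarith

end Nr

/-- **full ends do not accumulate** -/
theorem Wld.lf (W : Wld T E) (h : Irr U T) (h4 : ∀ x, (T x).ncard ≤ 4) (p : ℂ) :
    ¬ ∃ᶠ v in 𝓝[≠] p, v ∈ E := by
  obtain ⟨c, N⟩ := exists_nr h W h4 p
  exact N.lf

end Vale.Agent.P032.Six
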