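import Vale.Agent.P032.S5.H824.Two
import Vale.Agent.P032.S5.H80.Clean

/-!
# P032: the wedge lemma

`v` with `T v ⊆ {a, b, e}` and three different points `M1, M2, M3` of `S(v)` such that near `v` the
colours `a, b` are on different sides of `S(M1)`, the colours `b, e` on different sides of `S(M2)`
and the colours `e, a` on different sides of `S(M3)`.  Then near `v` the palettes are exactly those
of three sectors: the palette is a single colour except on three half arcs (one of each circle)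
ending at `v`, on which it is `{a, b}`, `{b, e}`, `{e, a}`.
-/

open Set Filter Topology Metric

noncomputable section

namespace Vale.Agent.P032.Six

variable {k : ℕ} {U : Fin k → Set ℂ} {T : ℂ → Set (Fin k)}

/-- where `s * (dist x M - 1)` is positive the colour `i` is absent, where it is negative the colour
`j` is absent -/
def Os (U : Fin k → Set ℂ) (M : ℂ) (s : ℝ) (V : ℂ) (i j : Fin k) : Prop :=
  ∀ᶠ x in 𝓝 V, (0 < s * (dist x M - 1) → i ∉ Pal U x) ∧ (s * (dist x M - 1) < 0 → j ∉ Pal U x)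

theorem os_of_sd {M V : ℂ} {i j : Fin k} (h : Sd U M V i j ∨ Sd U M V j i) :
    ∃ s : ℝ, (s = 1 ∨ s = -1) ∧ Os U M s V i j := by
  rcases h with h | h
  · refine ⟨1, Or.inl rfl, ?_⟩
    filter_upwards [h] with x hx
    exact ⟨fun h1 => hx.1 (by linarith), fun h1 => hx.2 (by linarith)⟩
  · refine ⟨-1, Or.inr rfl, ?_⟩
    filter_upwards [h] with x hx
    exact ⟨fun h1 => hx.2 (by linarith), fun h1 => hx.1 (by linarith)⟩

/-- points of the unit circle about `M` near `v` -/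
theorem near_circle {v M : ℂ} (hd : dist v M = 1) {δ : ℝ} (hδ : 0 < δ) :
    ∀ᶠ x in 𝓝 v, dist x M = 1 → ∃ t : ℝ, |t| < δ ∧ x = M + (v - M) * cis t := by
  have hn : ‖v - M‖ = 1 := by rw [← dist_eq_norm]; exact hd
  have hne : v - M ≠ 0 := by
    intro h0
    rw [h0, norm_zero] at hn
    exact zero_ne_one hn
  have h1 : Tendsto (fun x : ℂ => (x - M) / (v - M)) (𝓝 v) (𝓝 1) := by
    have h2 : Continuous fun x : ℂ => (x - M) / (v - M) := by fun_prop
    have h3 := h2.tendsto v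
    rwa [div_self hne] at h3
  have h2 : ContinuousAt Complex.arg 1 := Complex.continuousAt_arg (Or.inl (by simp))
  have h3 : Tendsto (fun x : ℂ => Complex.arg ((x - M) / (v - M))) (𝓝 v) (𝓝 0) := by
    have h4 := h2.tendsto.comp h1
    rw [Complex.arg_one] at h4
    exact h4
  filter_upwards [h3.eventually (Metric.ball_mem_nhds (0 : ℝ) hδ)] with x hx hxM
  have hx' : |Complex.arg ((x - M) / (v - M))| < δ := by
    have h5 : dist (Complex.arg ((x - M) / (v - M))) 0 < δ := hx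
    rwa [Real.dist_eq, sub_zero] at h5
  refine ⟨_, hx', ?_⟩
  have hw : ‖(x - M) / (v - M)‖ = 1 := by
    rw [norm_div, hn, ← dist_eq_norm, hxM, div_one]
  have h5 := Complex.norm_mul_exp_arg_mul_I ((x - M) / (v - M))
  rw [hw, Complex.ofReal_one, one_mul] at h5
  unfold cis
  rw [h5, mul_div_cancel₀ _ hne]
  ring

/-- from an eventual statement at `0+` to an interval -/
theorem exists_pos_of_ev {P : ℝ → Prop} (h : ∀ᶠ t : ℝ in 𝓝[>] 0, P t) :
    ∃ δ > 0, ∀ t, 0 < t → t < δ → P t := by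
  obtain ⟨δ, hδ, hd⟩ := mem_nhdsGT_iff_exists_Ioo_subset.1 h
  exact ⟨δ, hδ, fun t h1 h2 => hd ⟨h1, h2⟩⟩

/-- the data of the wedge lemma -/
structure Wd (U : Fin k → Set ℂ) (T : ℂ → Set (Fin k)) (v M1 M2 M3 : ℂ) (a b e : Fin k)
    (s1 s2 s3 : ℝ) : Prop where
  hT : T v ⊆ {a, b, e}
  d1 : dist v M1 = 1
  d2 : dist v M2 = 1
  d3 : dist v M3 = 1
  o1 : Os U M1 s1 v a b
  o2 : Os U M2 s2 v b e
  o3 : Os U M3 s3 v e a
  q1 : s1 = 1 ∨ s1 = -1
  q2 : s2 = 1 ∨ s2 = -1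
  q3 : s3 = 1 ∨ s3 = -1
  a1 : a ∈ Pal U M1
  b1 : b ∈ Pal U M1
  b2 : b ∈ Pal U M2
  e2 : e ∈ Pal U M2
  e3 : e ∈ Pal U M3
  a3 : a ∈ Pal U M3
  n12 : M1 ≠ M2
  n23 : M2 ≠ M3
  n31 : M3 ≠ M1

namespace Wd

variable {v M1 M2 M3 : ℂ} {a b e : Fin k} {s1 s2 s3 : ℝ}

theorem rot (W : Wd U T v M1 M2 M3 a b e s1 s2 s3) : Wd U T v M2 M3 M1 b e a s2 s3 s1 where
  hT := by
    intro i hi
    have := W.hT hi
    simp only [mem_insert_iff, mem_singleton_iff] at this ⊢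
    tauto
  d1 := W.d2
  d2 := W.d3
  d3 := W.d1
  o1 := W.o2
  o2 := W.o3
  o3 := W.o1
  q1 := W.q2
  q2 := W.q3
  q3 := W.q1
  a1 := W.b2
  b1 := W.e2
  b2 := W.e3
  e2 := W.a3
  e3 := W.a1
  a3 := W.b1
  n12 := W.n23
  n23 := W.n31
  n31 := W.n12

/-- palettes on `S(M1)` near `v` -/
theorem circ (W : Wd U T v M1 M2 M3 a b e s1 s2 s3) (h : Irr U T) :
    ∀ᶠ x in 𝓝 v, dist x M1 = 1 →
      ¬ (0 < s2 * (dist x M2 - 1) ∧ 0 < s3 * (dist x M3 - 1)) ∧
      ¬ (s2 * (dist x M2 - 1) < 0 ∧ s3 * (dist x M3 - 1) < 0) ∧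
      (s2 * (dist x M2 - 1) < 0 ∧ 0 < s3 * (dist x M3 - 1) → T x = {a, b}) ∧
      (0 < s2 * (dist x M2 - 1) ∧ s3 * (dist x M3 - 1) < 0 → T x = {e}) := by
  filter_upwards [h.nhd v, W.o1, W.o2, W.o3] with x hx h1 h2 h3 hxM
  have hTx : ∀ i ∈ T x, i = a ∨ i = b ∨ i = e := by
    intro i hi
    have := W.hT (hx hi)
    simpa only [mem_insert_iff, mem_singleton_iff] using this
  have haU : x ∉ U a := h.mx.notMem W.a1 hxM
  have hbU : x ∉ U b := h.mx.notMem W.b1 hxM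
  refine ⟨fun h4 => ?_, fun h4 => ?_, fun h4 => ?_, fun h4 => ?_⟩
  · refine haU (h.mem_of_single fun i hi => ?_)
    rcases hTx i hi with rfl | rfl | rfl
    · rfl
    · exact absurd (h.sub _ hi) (h2.1 h4.1)
    · exact absurd (h.sub _ hi) (h3.1 h4.2)
  · refine hbU (h.mem_of_single fun i hi => ?_)
    rcases hTx i hi with rfl | rfl | rfl
    · exact absurd (h.sub _ hi) (h3.2 h4.2)
    · rfl
    · exact absurd (h.sub _ hi) (h2.2 h4.1)
  · have h5 : T x ⊆ {a, b} := by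
      intro i hi
      rcases hTx i hi with rfl | rfl | rfl
      · exact Or.inl rfl
      · exact Or.inr rfl
      · exact absurd (h.sub _ hi) (h2.2 h4.1)
    refine Subset.antisymm h5 ?_
    rintro i (rfl | hi)
    · by_contra ha
      refine hbU (h.mem_of_single fun j hj => ?_)
      rcases h5 hj with rfl | h6
      · exact absurd hj ha
      · exact h6
    · rw [mem_singleton_iff] at hi
      subst hi
      by_contra hb
      refine haU (h.mem_of_single fun j hj => ?_)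
      rcases h5 hj with rfl | h6
      · rfl
      · rw [mem_singleton_iff] at h6
        subst h6
        exact absurd hj hb
  · obtain ⟨j, hj⟩ := h.ne x
    have h5 : ∀ i ∈ T x, i = e := by
      intro i hi
      rcases hTx i hi with rfl | rfl | rfl
      · exact absurd (h.sub _ hi) (h3.2 h4.2)
      · exact absurd (h.sub _ hi) (h2.1 h4.1)
      · rfl
    ext i
    refine ⟨fun hi => h5 i hi, ?_⟩
    rintro rfl
    rwa [← h5 j hj]

/-- the sign of `s * (dist - 1)` on the half arc of `S(M)` on the side `o` -/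
theorem sgn_pos {v M N : ℂ} (hN : dist v N = 1) {s o : ℝ} (hs : s = 1 ∨ s = -1)
    (h : 0 < s * (o * cr (v - M) (v - N))) :
    ∀ᶠ t : ℝ in 𝓝[>] 0, 0 < s * (dist (M + (v - M) * cis (o * t)) N - 1) := by
  rcases hs with rfl | rfl
  · filter_upwards [arc_out (C := M) hN (τ := o) (by linarith)] with t ht
    linarith
  · filter_upwards [arc_in (C := M) hN (τ := o) (by linarith)] with t ht
    linarith

theorem sgn_neg {v M N : ℂ} (hN : dist v N = 1) {s o : ℝ} (hs : s = 1 ∨ s = -1)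
    (h : s * (o * cr (v - M) (v - N)) < 0) :
    ∀ᶠ t : ℝ in 𝓝[>] 0, s * (dist (M + (v - M) * cis (o * t)) N - 1) < 0 := by
  rcases hs with rfl | rfl
  · filter_upwards [arc_in (C := M) hN (τ := o) (by linarith)] with t ht
    linarith
  · filter_upwards [arc_out (C := M) hN (τ := o) (by linarith)] with t ht
    linarith

/-- points of an externally tangent circle -/
theorem tangent_out {v M : ℂ} (hv : dist v M = 1) {t o : ℝ} (ho : o = 1 ∨ o = -1) (ht : 0 < t)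
    (ht1 : t < 1) : 1 < dist (M + (v - M) * cis (o * t)) (2 * v - M) := by
  have hVn : ‖v - M‖ = 1 := by rw [← dist_eq_norm]; exact hv
  have e1 : M + (v - M) * cis (o * t) - (2 * v - M) = (v - M) * (cis (o * t) - 2) := by ring
  rw [dist_eq_norm, e1, norm_mul, hVn, one_mul]
  have hcos : Real.cos (o * t) < 1 := by
    have hc : Real.cos (o * t) = Real.cos t := by
      rcases ho with rfl | rfl
      · rw [one_mul]
      · rw [neg_one_mul, Real.cos_neg]
    rw [hc, ← Real.cos_zero]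
    exact Real.cos_lt_cos_of_nonneg_of_le_pi le_rfl (by linarith [Real.pi_gt_three]) ht
  have h6 : ‖cis (o * t) - 2‖ ^ 2 = 5 - 4 * Real.cos (o * t) := by
    rw [Complex.sq_norm, Complex.normSq_apply]
    simp only [Complex.sub_re, Complex.sub_im, cis_re, cis_im]
    have := Real.sin_sq_add_cos_sq (o * t)
    simp
    nlinarith
  have h7 := norm_nonneg (cis (o * t) - 2)
  nlinarith

/-- the circles `S(M1)` and `S(M2)` are not tangent -/
theorem anti (W : Wd U T v M1 M2 M3 a b e s1 s2 s3) (h : Irr U T) : M1 + M2 ≠ 2 * v := by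
  intro h0
  have hM2 : M2 = 2 * v - M1 := by linear_combination h0
  have hc : cr (v - M1) (v - M3) ≠ 0 := by
    intro h1
    rcases cr_zero (by rw [← dist_eq_norm]; exact W.d1) (by rw [← dist_eq_norm]; exact W.d3) h1
      with h2 | h2
    · exact W.n31 (by linear_combination h2)
    · exact W.n23 (by linear_combination hM2 + h2)
  -- on both halves the sign with respect to `M2` is that of `s2`
  have hA : ∀ o : ℝ, (o = 1 ∨ o = -1) →
      ∀ᶠ t : ℝ in 𝓝[>] 0, 1 < dist (M1 + (v - M1) * cis (o * t)) M2 := by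
    intro o ho
    filter_upwards [self_mem_nhdsWithin,
      mem_nhdsWithin_of_mem_nhds (Iio_mem_nhds (show (0 : ℝ) < 1 by norm_num))] with t h1 h2
    rw [hM2]
    exact tangent_out W.d1 ho h1 h2
  have hs3 : s3 ≠ 0 := by rcases W.q3 with h1 | h1 <;> rw [h1] <;> norm_num
  obtain ⟨o, ho, hpos⟩ : ∃ o : ℝ, (o = 1 ∨ o = -1) ∧ 0 < s2 * (s3 * (o * cr (v - M1) (v - M3))) := by
    have hs2 : s2 ≠ 0 := by rcases W.q2 with h1 | h1 <;> rw [h1] <;> norm_num
    have hne : s2 * (s3 * cr (v - M1) (v - M3)) ≠ 0 := mul_ne_zero hs2 (mul_ne_zero hs3 hc)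
    rcases lt_or_gt_of_ne hne with h1 | h1
    · exact ⟨-1, Or.inr rfl, by linarith⟩
    · exact ⟨1, Or.inl rfl, by linarith⟩
  have hcirc := (tendsto_arc M1 v o).eventually (W.circ h)
  rcases W.q2 with h2 | h2
  · rw [h2, one_mul] at hpos
    obtain ⟨t, h3, h4, h5⟩ := (hcirc.and ((hA o ho).and (sgn_pos W.d3 W.q3 hpos))).exists
    refine (h3 (dist_arc W.d1 _)).1 ⟨?_, h5⟩
    rw [h2]; linarith
  · rw [h2] at hpos
    obtain ⟨t, h3, h4, h5⟩ := (hcirc.and ((hA o ho).and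
      (sgn_neg W.d3 W.q3 (show s3 * (o * cr (v - M1) (v - M3)) < 0 by linarith)))).exists
    refine (h3 (dist_arc W.d1 _)).2.1 ⟨?_, h5⟩
    rw [h2]; linarith

theorem cr12 (W : Wd U T v M1 M2 M3 a b e s1 s2 s3) (h : Irr U T) :
    cr (v - M1) (v - M2) ≠ 0 := by
  intro h1
  rcases cr_zero (by rw [← dist_eq_norm]; exact W.d1) (by rw [← dist_eq_norm]; exact W.d2) h1
    with h2 | h2
  · exact W.n12 (by linear_combination -h2)
  · exact W.anti h (by linear_combination -h2)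

/-- opposite signs on `S(M1)` -/
theorem opp (W : Wd U T v M1 M2 M3 a b e s1 s2 s3) (h : Irr U T) :
    ∃ o : ℝ, (o = 1 ∨ o = -1) ∧ s2 * (o * cr (v - M1) (v - M2)) < 0 ∧
      0 < s3 * (o * cr (v - M1) (v - M3)) := by
  have h12 := W.cr12 h
  have h13 : cr (v - M1) (v - M3) ≠ 0 := by
    have := W.rot.rot.cr12 h
    intro h0
    apply this
    rw [cr_swap, h0, neg_zero]
  have hs2 : s2 ≠ 0 := by rcases W.q2 with h1 | h1 <;> rw [h1] <;> norm_num
  have hs3 : s3 ≠ 0 := by rcases W.q3 with h1 | h1 <;> rw [h1] <;> norm_num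
  obtain ⟨o, ho, hneg⟩ : ∃ o : ℝ, (o = 1 ∨ o = -1) ∧ s2 * (o * cr (v - M1) (v - M2)) < 0 := by
    have hne : s2 * cr (v - M1) (v - M2) ≠ 0 := mul_ne_zero hs2 h12
    rcases lt_or_gt_of_ne hne with h1 | h1
    · exact ⟨1, Or.inl rfl, by linarith⟩
    · exact ⟨-1, Or.inr rfl, by linarith⟩
  refine ⟨o, ho, hneg, ?_⟩
  have ho0 : o ≠ 0 := by rcases ho with h1 | h1 <;> rw [h1] <;> norm_num
  rcases lt_or_gt_of_ne (mul_ne_zero hs3 (mul_ne_zero ho0 h13)) with h1 | h1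
  · exfalso
    obtain ⟨t, h3, h4, h5⟩ := (((tendsto_arc M1 v o).eventually (W.circ h)).and
      ((sgn_neg W.d2 W.q2 hneg).and (sgn_neg W.d3 W.q3 h1))).exists
    exact (h3 (dist_arc W.d1 _)).2.1 ⟨h4, h5⟩
  · exact h1

/-- **the half arcs of `S(M1)`**: `{a, b}` on one side of `v`, `{e}` on the other side -/
theorem arcs (W : Wd U T v M1 M2 M3 a b e s1 s2 s3) (h : Irr U T) :
    ∃ o : ℝ, (o = 1 ∨ o = -1) ∧
      (∀ᶠ t : ℝ in 𝓝[>] 0, T (M1 + (v - M1) * cis (o * t)) = {a, b}) ∧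
      (∀ᶠ t : ℝ in 𝓝[>] 0, T (M1 + (v - M1) * cis (-o * t)) = {e}) := by
  obtain ⟨o, ho, h1, h2⟩ := W.opp h
  refine ⟨o, ho, ?_, ?_⟩
  · filter_upwards [(tendsto_arc M1 v o).eventually (W.circ h), sgn_neg W.d2 W.q2 h1,
      sgn_pos W.d3 W.q3 h2] with t h3 h4 h5
    exact (h3 (dist_arc W.d1 _)).2.2.1 ⟨h4, h5⟩
  · filter_upwards [(tendsto_arc M1 v (-o)).eventually (W.circ h),
      sgn_pos W.d2 W.q2 (o := -o) (M := M1) (by linarith),
      sgn_neg W.d3 W.q3 (o := -o) (M := M1) (by linarith)] with t h3 h4 h5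
    exact (h3 (dist_arc W.d1 _)).2.2.2 ⟨h4, h5⟩

/-- one circle: near `v` the points of `S(M1)` without singleton palette are `v` and the points of
the half arc -/
theorem on_circle (W : Wd U T v M1 M2 M3 a b e s1 s2 s3) {o : ℝ} (ho : o = 1 ∨ o = -1)
    (h2 : ∀ᶠ t : ℝ in 𝓝[>] 0, T (M1 + (v - M1) * cis (-o * t)) = {e}) {δ : ℝ} (hδ : 0 < δ) :
    ∀ᶠ x in 𝓝 v, dist x M1 = 1 → (∃ i, T x = {i}) ∨ x = v ∨
      ∃ t : ℝ, 0 < t ∧ t < δ ∧ x = M1 + (v - M1) * cis (o * t) := by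
  obtain ⟨δ', hδ', hd'⟩ := exists_pos_of_ev h2
  filter_upwards [near_circle W.d1 (lt_min hδ hδ')] with x hx hxM
  obtain ⟨t, ht, rfl⟩ := hx hxM
  have ht1 := lt_of_lt_of_le ht (min_le_left _ _)
  have ht2 := lt_of_lt_of_le ht (min_le_right _ _)
  rcases lt_trichotomy (o * t) 0 with h3 | h3 | h3
  · left
    refine ⟨e, ?_⟩
    have h4 : |t| = -(o * t) := by
      rcases ho with rfl | rfl
      · rw [one_mul] at h3 ⊢; exact abs_of_neg h3
      · rw [abs_of_pos (by linarith)]; ring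
    have h5 := hd' (-(o * t)) (by linarith) (by linarith)
    have h6 : -o * -(o * t) = t := by
      rcases ho with rfl | rfl <;> ring
    rwa [h6] at h5
  · right; left
    have h4 : t = 0 := by
      rcases ho with rfl | rfl <;> linarith
    rw [h4]; simp [cis]
  · right; right
    have h4 : |t| = o * t := by
      rcases ho with rfl | rfl
      · rw [one_mul] at h3 ⊢; exact abs_of_pos h3
      · rw [abs_of_neg (by linarith)]; ring
    refine ⟨o * t, h3, by linarith, ?_⟩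
    have h6 : o * (o * t) = t := by
      rcases ho with rfl | rfl <;> ring
    rw [h6]

/-- off the three circles the palettes are single colours -/
theorem off_circles (W : Wd U T v M1 M2 M3 a b e s1 s2 s3) (h : Irr U T) :
    ∀ᶠ x in 𝓝 v, dist x M1 ≠ 1 → dist x M2 ≠ 1 → dist x M3 ≠ 1 → ∃ i, T x = {i} := by
  filter_upwards [h.nhd v, W.o1, W.o2, W.o3] with x hx h1 h2 h3 d1 d2 d3
  have hTx : ∀ i ∈ T x, i = a ∨ i = b ∨ i = e := by
    intro i hi
    have := W.hT (hx hi)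
    simpa only [mem_insert_iff, mem_singleton_iff] using this
  have key : ∀ {l : Fin k}, (∀ i ∈ T x, i = l) → ∃ i, T x = {i} := by
    intro l hl
    obtain ⟨j, hj⟩ := h.ne x
    refine ⟨l, ?_⟩
    ext i
    refine ⟨fun hi => hl i hi, ?_⟩
    rintro rfl
    rwa [← hl j hj]
  have c1 : s1 * (dist x M1 - 1) ≠ 0 := by
    refine mul_ne_zero ?_ (sub_ne_zero.2 d1)
    rcases W.q1 with h4 | h4 <;> rw [h4] <;> norm_num
  have c2 : s2 * (dist x M2 - 1) ≠ 0 := by
    refine mul_ne_zero ?_ (sub_ne_zero.2 d2)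
    rcases W.q2 with h4 | h4 <;> rw [h4] <;> norm_num
  have c3 : s3 * (dist x M3 - 1) ≠ 0 := by
    refine mul_ne_zero ?_ (sub_ne_zero.2 d3)
    rcases W.q3 with h4 | h4 <;> rw [h4] <;> norm_num
  rcases lt_or_gt_of_ne c1 with k1 | k1 <;> rcases lt_or_gt_of_ne c2 with k2 | k2 <;>
    rcases lt_or_gt_of_ne c3 with k3 | k3
  · -- all negative : no colour
    refine key (l := a) fun i hi => ?_
    rcases hTx i hi with rfl | rfl | rfl
    · rfl
    · exact absurd (h.sub _ hi) (h1.2 k1)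
    · exact absurd (h.sub _ hi) (h2.2 k2)
  · refine key (l := a) fun i hi => ?_
    rcases hTx i hi with rfl | rfl | rfl
    · rfl
    · exact absurd (h.sub _ hi) (h1.2 k1)
    · exact absurd (h.sub _ hi) (h2.2 k2)
  · refine key (l := e) fun i hi => ?_
    rcases hTx i hi with rfl | rfl | rfl
    · exact absurd (h.sub _ hi) (h3.2 k3)
    · exact absurd (h.sub _ hi) (h1.2 k1)
    · rfl
  · refine key (l := a) fun i hi => ?_
    rcases hTx i hi with rfl | rfl | rfl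
    · rfl
    · exact absurd (h.sub _ hi) (h1.2 k1)
    · exact absurd (h.sub _ hi) (h3.1 k3)
  · refine key (l := b) fun i hi => ?_
    rcases hTx i hi with rfl | rfl | rfl
    · exact absurd (h.sub _ hi) (h1.1 k1)
    · rfl
    · exact absurd (h.sub _ hi) (h2.2 k2)
  · refine key (l := b) fun i hi => ?_
    rcases hTx i hi with rfl | rfl | rfl
    · exact absurd (h.sub _ hi) (h1.1 k1)
    · rfl
    · exact absurd (h.sub _ hi) (h2.2 k2)
  · refine key (l := e) fun i hi => ?_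
    rcases hTx i hi with rfl | rfl | rfl
    · exact absurd (h.sub _ hi) (h1.1 k1)
    · exact absurd (h.sub _ hi) (h2.1 k2)
    · rfl
  · refine key (l := e) fun i hi => ?_
    rcases hTx i hi with rfl | rfl | rfl
    · exact absurd (h.sub _ hi) (h1.1 k1)
    · exact absurd (h.sub _ hi) (h2.1 k2)
    · rfl

end Wd

/-- a half arc of `S(M)` ending at `v` with palette `P`, on the side `o` -/
def Harc (T : ℂ → Set (Fin k)) (M v : ℂ) (o : ℝ) (P : Set (Fin k)) : Prop :=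
  (o = 1 ∨ o = -1) ∧ ∀ᶠ t : ℝ in 𝓝[>] 0, T (M + (v - M) * cis (o * t)) = P

/-- **WEDGE LEMMA**, abstract form -/
theorem Wd.wedge {v M1 M2 M3 : ℂ} {a b e : Fin k} {s1 s2 s3 : ℝ}
    (W : Wd U T v M1 M2 M3 a b e s1 s2 s3) (h : Irr U T) :
    ∃ o1 o2 o3 : ℝ, Harc T M1 v o1 {a, b} ∧ Harc T M2 v o2 {b, e} ∧ Harc T M3 v o3 {e, a} ∧
      Harc T M1 v (-o1) {e} ∧ Harc T M2 v (-o2) {a} ∧ Harc T M3 v (-o3) {b} ∧
      ∀ δ > 0, ∀ᶠ x in 𝓝 v, (∃ i, T x = {i}) ∨ x = v ∨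
        (∃ t : ℝ, 0 < t ∧ t < δ ∧ x = M1 + (v - M1) * cis (o1 * t)) ∨
        (∃ t : ℝ, 0 < t ∧ t < δ ∧ x = M2 + (v - M2) * cis (o2 * t)) ∨
        ∃ t : ℝ, 0 < t ∧ t < δ ∧ x = M3 + (v - M3) * cis (o3 * t) := by
  have neg : ∀ {o : ℝ}, (o = 1 ∨ o = -1) → (-o = 1 ∨ -o = -1) := by
    rintro o (rfl | rfl)
    · exact Or.inr rfl
    · left; norm_num
  obtain ⟨o1, q1, r1, t1⟩ := W.arcs h
  obtain ⟨o2, q2, r2, t2⟩ := W.rot.arcs h
  obtain ⟨o3, q3, r3, t3⟩ := W.rot.rot.arcs h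
  refine ⟨o1, o2, o3, ⟨q1, r1⟩, ⟨q2, r2⟩, ⟨q3, r3⟩, ⟨neg q1, t1⟩, ⟨neg q2, t2⟩, ⟨neg q3, t3⟩,
    fun δ hδ => ?_⟩
  filter_upwards [W.on_circle q1 t1 hδ, W.rot.on_circle q2 t2 hδ, W.rot.rot.on_circle q3 t3 hδ,
    W.off_circles h] with x h1 h2 h3 h4
  by_cases d1 : dist x M1 = 1
  · rcases h1 d1 with h5 | h5 | h5
    · exact Or.inl h5
    · exact Or.inr (Or.inl h5)
    · exact Or.inr (Or.inr (Or.inl h5))
  by_cases d2 : dist x M2 = 1
  · rcases h2 d2 with h5 | h5 | h5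
    · exact Or.inl h5
    · exact Or.inr (Or.inl h5)
    · exact Or.inr (Or.inr (Or.inr (Or.inl h5)))
  by_cases d3 : dist x M3 = 1
  · rcases h3 d3 with h5 | h5 | h5
    · exact Or.inl h5
    · exact Or.inr (Or.inl h5)
    · exact Or.inr (Or.inr (Or.inr (Or.inr h5)))
  exact Or.inl (h4 d1 d2 d3)

/-- the data from three two-pair centres -/
theorem wd_of_hubs (h : Irr U T) {v M1 M2 M3 : ℂ} {a b e c1 d1 c2 d2 c3 d3 : Fin k}
    (hT : T v ⊆ {a, b, e}) (h1 : DPt T M1 a b c1 d1) (h2 : DPt T M2 b e c2 d2)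
    (h3 : DPt T M3 e a c3 d3) (v1 : dist v M1 = 1) (v2 : dist v M2 = 1) (v3 : dist v M3 = 1)
    (n12 : M1 ≠ M2) (n23 : M2 ≠ M3) (n31 : M3 ≠ M1) :
    ∃ s1 s2 s3 : ℝ, Wd U T v M1 M2 M3 a b e s1 s2 s3 := by
  obtain ⟨s1, q1, o1⟩ := os_of_sd (h.sides h1 v1)
  obtain ⟨s2, q2, o2⟩ := os_of_sd (h.sides h2 v2)
  obtain ⟨s3, q3, o3⟩ := os_of_sd (h.sides h3 v3)
  exact ⟨s1, s2, s3, ⟨hT, v1, v2, v3, o1, o2, o3, q1, q2, q3,
    h.sub _ (by rw [h1.pal]; simp), h.sub _ (by rw [h1.pal]; simp),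
    h.sub _ (by rw [h2.pal]; simp), h.sub _ (by rw [h2.pal]; simp),
    h.sub _ (by rw [h3.pal]; simp), h.sub _ (by rw [h3.pal]; simp), n12, n23, n31⟩⟩

/-- **WEDGE LEMMA** at a point of three colours which sees three different two-pair centres -/
theorem Irr.wedge (h : Irr U T) {v M1 M2 M3 : ℂ} {a b e c1 d1 c2 d2 c3 d3 : Fin k}
    (hT : T v ⊆ {a, b, e}) (h1 : DPt T M1 a b c1 d1) (h2 : DPt T M2 b e c2 d2)
    (h3 : DPt T M3 e a c3 d3) (v1 : dist v M1 = 1) (v2 : dist v M2 = 1) (v3 : dist v M3 = 1)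
    (n12 : M1 ≠ M2) (n23 : M2 ≠ M3) (n31 : M3 ≠ M1) :
    ∃ o1 o2 o3 : ℝ, Harc T M1 v o1 {a, b} ∧ Harc T M2 v o2 {b, e} ∧ Harc T M3 v o3 {e, a} ∧
      Harc T M1 v (-o1) {e} ∧ Harc T M2 v (-o2) {a} ∧ Harc T M3 v (-o3) {b} ∧
      ∀ δ > 0, ∀ᶠ x in 𝓝 v, (∃ i, T x = {i}) ∨ x = v ∨
        (∃ t : ℝ, 0 < t ∧ t < δ ∧ x = M1 + (v - M1) * cis (o1 * t)) ∨
        (∃ t : ℝ, 0 < t ∧ t < δ ∧ x = M2 + (v - M2) * cis (o2 * t)) ∨
        ∃ t : ℝ, 0 < t ∧ t < δ ∧ x = M3 + (v - M3) * cis (o3 * t) := by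
  obtain ⟨s1, s2, s3, W⟩ := wd_of_hubs h hT h1 h2 h3 v1 v2 v3 n12 n23 n31
  exact W.wedge h

/-- `XX`-form: near `v` the points without colour are on the three closed half arcs -/
theorem Irr.not_single_of_XX (h : Irr U T) {x : ℂ} (hx : x ∈ XX U) : ¬ ∃ i, T x = {i} := by
  rintro ⟨i, hi⟩
  exact hx i (h.mem_of_single (by rw [hi]))

/-- **interior points of an exact arc of a two-pair centre**: off the circle the palettes are single
colours -/
theorem Irr.arc_local (h : Irr U T) {z V : ℂ} {a b c d : Fin k} (hz : DPt T z a b c d)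
    (hV : Arc T z V {a, b}) :
    ∀ᶠ x in 𝓝 V, (dist x z ≠ 1 → ∃ i, T x = {i}) ∧ (dist x z = 1 → T x = {a, b}) := by
  have key : ∀ {a b : Fin k} (_ : T V ⊆ {a, b}) (_ : Sd U z V a b),
      ∀ᶠ x in 𝓝 V, dist x z ≠ 1 → ∃ i, T x = {i} := by
    intro a b hT hs
    filter_upwards [h.nhd V, hs] with x h1 h2 h3
    obtain ⟨j, hj⟩ := h.ne x
    rcases lt_or_gt_of_ne h3 with h4 | h4
    · have h5 : ∀ i ∈ T x, i = a := by
        intro i hi
        rcases hT (h1 hi) with rfl | h6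
        · rfl
        · rw [mem_singleton_iff] at h6
          subst h6
          exact absurd (h.sub _ hi) (h2.2 h4)
      refine ⟨a, ?_⟩
      ext i
      refine ⟨fun hi => h5 i hi, ?_⟩
      rintro rfl
      rwa [← h5 j hj]
    · have h5 : ∀ i ∈ T x, i = b := by
        intro i hi
        rcases hT (h1 hi) with rfl | h6
        · exact absurd (h.sub _ hi) (h2.1 h4)
        · exact h6
      refine ⟨b, ?_⟩
      ext i
      refine ⟨fun hi => h5 i hi, ?_⟩
      rintro rfl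
      rwa [← h5 j hj]
  have h1 : ∀ᶠ x in 𝓝 V, dist x z ≠ 1 → ∃ i, T x = {i} := by
    rcases h.sides hz hV.1 with hs | hs
    · exact key (by rw [hV.mem]) hs
    · exact key (by rw [hV.mem, pair_comm]) hs
  have h2 : ∀ᶠ x in 𝓝 V, dist x z = 1 → T x = {a, b} := by
    obtain ⟨w, hw, hws⟩ := mem_nhdsWithin_iff_exists_mem_nhds_inter.1 hV.2
    filter_upwards [hw] with x hx hxz
    exact hws ⟨hx, hxz⟩
  filter_upwards [h1, h2] with x h3 h4
  exact ⟨h3, h4⟩

/-- **SEPARATION**: on a compact set whose points have at most `m` colours, two points with more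
than `m` colours together are at a distance bounded below -/
theorem Irr.separation (h : Irr U T) {K : Set ℂ} (hK : IsCompact K) {m : ℕ}
    (h4 : ∀ p ∈ K, (T p).ncard ≤ m) :
    ∃ c > 0, ∀ x ∈ K, ∀ y ∈ K, m < (T x ∪ T y).ncard → c ≤ dist x y := by
  by_contra hcon
  push Not at hcon
  have h1 : ∀ n : ℕ, ∃ p : ℂ × ℂ, p.1 ∈ K ∧ p.2 ∈ K ∧ m < (T p.1 ∪ T p.2).ncard ∧
      dist p.1 p.2 < 1 / (n + 1) := by
    intro n
    obtain ⟨x, hx, y, hy, h2, h3⟩ := hcon (1 / (n + 1)) (by positivity)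
    exact ⟨(x, y), hx, hy, h2, h3⟩
  choose p hp1 hp2 hp3 hp4 using h1
  obtain ⟨q, hqK, φ, hφ, hlim⟩ := hK.tendsto_subseq (fun n => hp1 n)
  have hlim2 : Tendsto (fun n => (p (φ n)).2) atTop (𝓝 q) := by
    refine tendsto_of_tendsto_of_dist hlim ?_
    have h5 : Tendsto (fun n => 1 / ((φ n : ℝ) + 1)) atTop (𝓝 0) :=
      (tendsto_one_div_add_atTop_nhds_zero_nat (𝕜 := ℝ)).comp hφ.tendsto_atTop
    refine squeeze_zero (fun n => dist_nonneg) (fun n => (hp4 (φ n)).le) h5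
  obtain ⟨n, h5, h6⟩ := ((hlim.eventually (h.nhd q)).and (hlim2.eventually (h.nhd q))).exists
  have h7 : T (p (φ n)).1 ∪ T (p (φ n)).2 ⊆ T q := union_subset h5 h6
  have h8 := Set.ncard_le_ncard h7 (Set.toFinite _)
  have h9 := h4 q hqK
  have h10 := hp3 (φ n)
  omega

end Vale.Agent.P032.Six
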